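import Mathlib
import Vale.Agent.Lib.P084.Corner.Dim3

/-! Gluing in dimension at least three: on a patch of touching points the derivative of the radial
extension is one fixed linear map. -/

namespace Vale.Agent.Lib.P084

open Set Metric Filter Topology Module

section GlueN

variable {X Y : Type*} [NormedAddCommGroup X] [NormedSpace ℝ X] [NormedAddCommGroup Y]
  [NormedSpace ℝ Y]

variable {g : X → Y} {F : Set X} {c₁ C₁ : ℝ}

lemma exists_kernelN [FiniteDimensional ℝ X] (hdim : 3 ≤ finrank ℝ X) (φ₁ φ₂ : X →L[ℝ] ℝ) :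
    ∃ w : X, ‖w‖ = 1 ∧ φ₁ w = 0 ∧ φ₂ w = 0 := by
  have h1 : LinearMap.ker ((φ₁ : X →ₗ[ℝ] ℝ).prod (φ₂ : X →ₗ[ℝ] ℝ)) ≠ ⊥ := by
    apply LinearMap.ker_ne_bot_of_finrank_lt
    simp
    omega
  obtain ⟨v, hv, hv0⟩ := Submodule.exists_mem_ne_zero_of_ne_bot h1
  rw [LinearMap.mem_ker] at hv
  have h2 : φ₁ v = 0 := congrArg Prod.fst hv
  have h3 : φ₂ v = 0 := congrArg Prod.snd hv
  refine ⟨‖v‖⁻¹ • v, unit_of_ne hv0, ?_, ?_⟩
  · rw [map_smul, h2, smul_zero]
  · rw [map_smul, h3, smul_zero]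

namespace Patch

lemma exists_neN [FiniteDimensional ℝ X] (hdim : 3 ≤ finrank ℝ X) (P : Patch g F c₁ C₁) {x : X}
    (hx : x ∈ F) {δ : ℝ} (hδ : 0 < δ) : ∃ y ∈ F, y ≠ x ∧ ‖y - x‖ < δ := by
  obtain ⟨w, hw, hw1, -⟩ := exists_kernelN hdim (chi x) (chi x)
  obtain ⟨t, ht, htε, y, hy, hyd⟩ := P.dir x hx w hw1 (min (1 / 2) (δ / 2)) (by positivity)
  have hε1 : min (1 / 2) (δ / 2) ≤ 1 / 2 := min_le_left _ _
  have hε2 : min (1 / 2) (δ / 2) ≤ δ / 2 := min_le_right _ _
  have hyd' : ‖y - (x + t • w)‖ ≤ 1 / 2 * t := hyd.trans (mul_le_mul_of_nonneg_right hε1 ht.le)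
  have htw : ‖t • w‖ = t := by rw [norm_smul, hw, mul_one, Real.norm_of_nonneg ht.le]
  refine ⟨y, hy, ?_, ?_⟩
  · rintro rfl
    have e : y - (y + t • w) = -(t • w) := by abel
    rw [e, norm_neg, htw] at hyd'
    linarith
  · have e : y - x = (y - (x + t • w)) + t • w := by abel
    rw [e]
    refine (norm_add_le _ _).trans_lt ?_
    rw [htw]
    linarith

section FrameN

variable [FiniteDimensional ℝ X] [StrictConvexSpace ℝ X]

/-- A frame of three independent derivatives of the norm on the patch, with its dual basis. -/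
lemma exists_frameN (C : ∀ z : X, z ≠ 0 → Dn z) (hdim : 3 ≤ finrank ℝ X) (P : Patch g F c₁ C₁)
    {x : X} (hx : x ∈ F) : ∃ y ∈ F, ∃ z ∈ F, ∃ e₁ e₂ e₃ : X,
      chi x e₁ = 1 ∧ chi y e₁ = 0 ∧ chi z e₁ = 0 ∧ chi x e₂ = 0 ∧ chi y e₂ = 1 ∧ chi z e₂ = 0 ∧
      chi x e₃ = 0 ∧ chi y e₃ = 0 ∧ chi z e₃ = 1 := by
  obtain ⟨y, hy, hne, -⟩ := P.exists_neN hdim hx one_pos
  have hxu := P.unit x hx
  have hyu := P.unit y hy
  have hne' : y ≠ -x := by
    intro e
    have h1 := P.small y hy x hx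
    rw [e, ← norm_neg, neg_sub, sub_neg_eq_add, ← two_smul ℝ, norm_smul, hxu] at h1
    norm_num at h1
  have hne'' : x ≠ -y := fun e => hne' (by rw [e, neg_neg])
  obtain ⟨a, ha1, ha2⟩ := exists_dual_pair hxu hyu (P.dn C hx) (P.dn C hy) hne.symm hne''
  obtain ⟨b, hb1, hb2⟩ := exists_dual_pair hyu hxu (P.dn C hy) (P.dn C hx) hne hne'
  obtain ⟨w, hw, hw1, hw2⟩ := exists_kernelN hdim (chi x) (chi y)
  obtain ⟨z, hz, hzw⟩ := P.exists_separating C hx hw hw1
  refine ⟨y, hy, z, hz, a - chi z a • ((chi z w)⁻¹ • w), b - chi z b • ((chi z w)⁻¹ • w),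
    (chi z w)⁻¹ • w, ?_⟩
  have e1 : chi x ((chi z w)⁻¹ • w) = 0 := by rw [map_smul, hw1, smul_zero]
  have e2 : chi y ((chi z w)⁻¹ • w) = 0 := by rw [map_smul, hw2, smul_zero]
  have e3 : chi z ((chi z w)⁻¹ • w) = 1 := by
    rw [map_smul, smul_eq_mul, inv_mul_cancel₀ hzw]
  simp only [map_sub, map_smul, e1, e2, e3, ha1, ha2, hb1, hb2, smul_eq_mul, mul_zero, sub_zero,
    mul_one, sub_self, and_self]

end FrameN

variable [FiniteDimensional ℝ X] [StrictConvexSpace ℝ X]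

/-- The derivatives of the extension on tangent vectors come from one linear map. -/
lemma exists_tangent_linearN (C : ∀ z : X, z ≠ 0 → Dn z) (hdim : 3 ≤ finrank ℝ X)
    (P : Patch g F c₁ C₁) {x : X} (hx : x ∈ F) : ∃ L : X →L[ℝ] Y,
      (∀ u ∈ F, ∀ d, chi u d = 0 → dT g u d = L d) ∧ ∀ v, (∀ u ∈ F, chi u v = 0) → v = 0 := by
  obtain ⟨y, hy, z, hz, e₁, e₂, e₃, x1, y1, z1, x2, y2, z2, x3, y3, z3⟩ :=
    P.exists_frameN C hdim hx
  obtain ⟨L, hL⟩ : ∃ L : X →L[ℝ] Y, L = (dT g x).comp (ContinuousLinearMap.id ℝ X -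
      (chi x).smulRight e₁) + (chi x).smulRight (dT g y e₁) := ⟨_, rfl⟩
  have hLv : ∀ v, L v = dT g x (v - chi x v • e₁) + chi x v • dT g y e₁ := by
    intro v
    rw [hL]
    simp
  have Lx : ∀ d, chi x d = 0 → dT g x d = L d := by
    intro d hd
    rw [hLv, hd, zero_smul, zero_smul, sub_zero, add_zero]
  have Ly : ∀ d, chi y d = 0 → dT g y d = L d := by
    intro d hd
    have h1 : chi x (d - chi x d • e₁) = 0 := by
      rw [map_sub, map_smul, x1, smul_eq_mul, mul_one, sub_self]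
    have h2 : chi y (d - chi x d • e₁) = 0 := by
      rw [map_sub, map_smul, y1, smul_zero, hd, sub_zero]
    rw [hLv, P.nd x hx y hy _ h1 h2, map_sub, map_smul]
    abel
  have Lz : ∀ d, chi z d = 0 → dT g z d = L d := by
    intro d hd
    have h1 : chi x (d - chi x d • e₁) = 0 := by
      rw [map_sub, map_smul, x1, smul_eq_mul, mul_one, sub_self]
    have h2 : chi z (d - chi x d • e₁) = 0 := by
      rw [map_sub, map_smul, z1, smul_zero, hd, sub_zero]
    rw [hLv, P.nd x hx z hz _ h1 h2, P.nd y hy z hz _ y1 z1, map_sub, map_smul]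
    abel
  refine ⟨L, ?_, ?_⟩
  · intro u hu d hd
    have key : ∀ a ∈ F, ∀ b ∈ F, (∀ d, chi a d = 0 → dT g a d = L d) →
        (∀ d, chi b d = 0 → dT g b d = L d) → ∀ f : X, chi u f = 0 → chi a f = 1 → chi b f = 0 →
        dT g u d = L d := by
      intro a ha b hb La Lb f f1 f2 f3
      have h1 : chi u (d - chi a d • f) = 0 := by
        rw [map_sub, map_smul, hd, f1, smul_zero, sub_zero]
      have h2 : chi a (d - chi a d • f) = 0 := by
        rw [map_sub, map_smul, f2, smul_eq_mul, mul_one, sub_self]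
      have h3 := (P.nd u hu a ha _ h1 h2).trans (La _ h2)
      have h4 := (P.nd u hu b hb _ f1 f3).trans (Lb _ f3)
      rw [map_sub, map_sub, map_smul, map_smul, h4] at h3
      exact sub_left_injective h3
    by_cases hγ : chi u e₃ = 0
    · by_cases hβ : chi u e₂ = 0
      · by_cases hα : chi u e₁ = 0
        · exact key x hx y hy Lx Ly e₁ hα x1 y1
        · exact key y hy z hz Ly Lz e₂ hβ y2 z2
      · refine key x hx z hz Lx Lz (e₁ - (chi u e₁ / chi u e₂) • e₂) ?_ ?_ ?_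
        · rw [map_sub, map_smul, smul_eq_mul, div_mul_cancel₀ _ hβ, sub_self]
        · rw [map_sub, map_smul, x1, x2, smul_zero, sub_zero]
        · rw [map_sub, map_smul, z1, z2, smul_zero, sub_zero]
    · refine key x hx y hy Lx Ly (e₁ - (chi u e₁ / chi u e₃) • e₃) ?_ ?_ ?_
      · rw [map_sub, map_smul, smul_eq_mul, div_mul_cancel₀ _ hγ, sub_self]
      · rw [map_sub, map_smul, x1, x3, smul_zero, sub_zero]
      · rw [map_sub, map_smul, y1, y3, smul_zero, sub_zero]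
  · intro v hv
    by_contra hv0
    have hw : ‖‖v‖⁻¹ • v‖ = 1 := unit_of_ne hv0
    have hzero : ∀ u ∈ F, chi u (‖v‖⁻¹ • v) = 0 := fun u hu => by
      rw [map_smul, hv u hu, smul_zero]
    obtain ⟨u, hu, hne⟩ := P.exists_separating C hx hw (hzero x hx)
    exact hne (hzero u hu)

end Patch

section ChordsN

variable [FiniteDimensional ℝ X] [Nontrivial X] [StrictConvexSpace ℝ X]
  {h : Y → X} {L : X →L[ℝ] Y}

/-- The limit of the chord relation. -/
lemma Patch.chi_L_selfN (C : C1Ctx g h) (hdim : 3 ≤ finrank ℝ X) (P : Patch g F c₁ C₁)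
    (hL : ∀ u ∈ F, ∀ d, chi u d = 0 → dT g u d = L d) {x : X} (hx : x ∈ F) (v : X) :
    chi (g x) (L v) = chi x v := by
  have hseq := fun n : ℕ => P.exists_neN hdim hx (δ := 1 / ((n : ℝ) + 1)) (by positivity)
  choose y hy hne hlt using hseq
  have hxu := P.unit x hx
  have hlim : Tendsto y atTop (𝓝 x) := by
    rw [tendsto_iff_norm_sub_tendsto_zero]
    exact squeeze_zero (fun _ => norm_nonneg _) (fun n => (hlt n).le)
      tendsto_one_div_add_atTop_nhds_zero_nat
  have hg := C.tendsto_g (fun n => P.unit _ (hy n)) hxu hlim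
  have hs1 : Tendsto (fun n => g x + g (y n)) atTop (𝓝 (g x + g x)) := tendsto_const_nhds.add hg
  have hs2 : Tendsto (fun n => x + y n) atTop (𝓝 (x + x)) := tendsto_const_nhds.add hlim
  have hp : ‖g x‖ = 1 := C.iso.map_g x hxu
  have h0 : g x + g x ≠ 0 := by
    rw [← two_smul ℝ]
    exact smul_ne_zero two_ne_zero (ne0_of_unit _ hp)
  have h0' : x + x ≠ 0 := by
    rw [← two_smul ℝ]
    exact smul_ne_zero two_ne_zero (ne0_of_unit _ hxu)
  have t1 := tendsto_clm_apply (chi_tendsto C.dnY h0 hs1) (tendsto_const_nhds (x := L v))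
  have t2 := tendsto_clm_apply (chi_tendsto C.dnX h0' hs2) (tendsto_const_nhds (x := v))
  have e1 : chi (g x + g x) = chi (g x) := by rw [← two_smul ℝ, chi_smul two_pos]
  have e2 : chi (x + x) = chi x := by rw [← two_smul ℝ, chi_smul two_pos]
  rw [e1] at t1
  rw [e2] at t2
  refine tendsto_nhds_unique t1 (t2.congr fun n => ?_)
  exact (P.chi_L_add C hL hx (hy n) (hne n).symm v).symm

lemma Patch.L_injectiveN (C : C1Ctx g h) (hdim : 3 ≤ finrank ℝ X) (P : Patch g F c₁ C₁)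
    (hL : ∀ u ∈ F, ∀ d, chi u d = 0 → dT g u d = L d)
    (hsep : ∀ v, (∀ u ∈ F, chi u v = 0) → v = 0) : Function.Injective L := by
  rw [injective_iff_map_eq_zero]
  intro v hv
  refine hsep v fun u hu => ?_
  rw [← P.chi_L_selfN C hdim hL hu v, hv, map_zero]

/-- On the patch, the linear map agrees with the sphere map. -/
lemma Patch.L_eq_gN (C : C1Ctx g h) (hdim : 3 ≤ finrank ℝ X) (P : Patch g F c₁ C₁)
    (hL : ∀ u ∈ F, ∀ d, chi u d = 0 → dT g u d = L d) (hsurj : Function.Surjective L)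
    {x : X} (hx : x ∈ F) : L x = g x := by
  obtain ⟨x', hx'⟩ := hsurj (g x)
  have hxu := P.unit x hx
  have hgx : ‖g x‖ = 1 := C.iso.map_g x hxu
  have hxx := P.chi_self C.dnX hx
  have h1 : chi x x' = 1 := by
    rw [← P.chi_L_selfN C hdim hL hx x', hx', (C.dnY _ (ne0_of_unit _ hgx)).chi_self, hgx]
  obtain ⟨w, hw⟩ : ∃ w, w = x' - x := ⟨_, rfl⟩
  have hw0 : chi x w = 0 := by
    rw [hw, map_sub, h1, hxx, sub_self]
  by_cases hw1 : w = 0
  · rw [hw, sub_eq_zero] at hw1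
    calc L x = L x' := by rw [hw1]
      _ = g x := hx'
  exfalso
  have hc := P.c_pos
  have hCp := P.C_pos
  obtain ⟨W, hWd⟩ : ∃ W, W = ‖w‖ := ⟨_, rfl⟩
  have hWp : 0 < W := by
    rw [hWd]
    exact norm_pos_iff.2 hw1
  obtain ⟨ε, hε⟩ : ∃ ε, ε = min (W / 2) (min (c₁ / C₁) (c₁ * W / (4 * C₁))) := ⟨_, rfl⟩
  have hε0 : 0 < ε := by
    rw [hε]
    positivity
  have hε1 : ε ≤ W / 2 := by
    rw [hε]
    exact min_le_left _ _
  have hε2 : ε ≤ c₁ / C₁ := by
    rw [hε]
    exact (min_le_right _ _).trans (min_le_left _ _)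
  have hε3 : ε ≤ c₁ * W / (4 * C₁) := by
    rw [hε]
    exact (min_le_right _ _).trans (min_le_right _ _)
  obtain ⟨t, ht, htε, y, hy, hyd⟩ := P.dir x hx w hw0 ε hε0
  have htw : ‖t • w‖ = t * W := by rw [norm_smul, Real.norm_of_nonneg ht.le, hWd]
  have hτ : t * W / 2 ≤ ‖y - x‖ := by
    have e : t • w = (y - x) - (y - (x + t • w)) := by abel
    have h2 : t * W ≤ ‖y - x‖ + ε * t := by
      calc t * W = ‖t • w‖ := htw.symm
        _ = ‖(y - x) - (y - (x + t • w))‖ := congrArg norm e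
        _ ≤ ‖y - x‖ + ‖y - (x + t • w)‖ := norm_sub_le _ _
        _ ≤ ‖y - x‖ + ε * t := by linarith
    have h2' := mul_le_mul_of_nonneg_right hε1 ht.le
    linarith
  have hτp : 0 < ‖y - x‖ := by
    have : 0 < t * W / 2 := by positivity
    linarith
  obtain ⟨τ, hτd⟩ : ∃ τ, τ = ‖y - x‖ := ⟨_, rfl⟩
  rw [← hτd] at hτ hτp
  -- the identity for the derivative
  have hyu := P.unit y hy
  have hgy : ‖g y‖ = 1 := C.iso.map_g y hyu
  have hyy := P.chi_self C.dnX hy
  have h3 : chi y x' = chi (g y) (g x) := by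
    rw [← P.chi_L_selfN C hdim hL hy x', hx']
  have h4 : chi (g y) (g x) ≤ 1 := by
    have := chi_le (g y) (g x)
    rwa [hgx] at this
  have hrate := P.rate x hx y hy
  rw [← hτd] at hrate
  have hang := P.ang C.dnX hx hy
  rw [← hτd] at hang
  -- the pairing with the chord
  have hbd : ∀ v : X, (chi y - chi x) v ≤ C₁ * τ * ‖v‖ := by
    intro v
    have h5 := (chi y - chi x).le_opNorm v
    rw [Real.norm_eq_abs] at h5
    refine (le_abs_self _).trans (h5.trans ?_)
    exact mul_le_mul_of_nonneg_right hrate (norm_nonneg _)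
  have h6 : (chi y - chi x) w ≤ C₁ * τ ^ 2 := by
    have e1 : (chi y - chi x) w = chi (g y) (g x) - chi y x := by
      rw [hw, map_sub, _root_.sub_apply, _root_.sub_apply, h3, h1, hxx]
      ring
    rw [e1]
    have h7 := hbd (y - x)
    rw [← hτd] at h7
    have e2 : (chi y - chi x) (y - x) = 1 - chi y x - chi x y + 1 := by
      rw [_root_.sub_apply, map_sub, map_sub, hyy, hxx]
      ring
    have h8 := chi_le x y
    rw [hyu] at h8
    rw [e2] at h7
    have e5 : C₁ * τ * τ = C₁ * τ ^ 2 := by ring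
    linarith
  have e3 : (chi y - chi x) (y - x) = t * (chi y - chi x) w + (chi y - chi x) (y - (x + t • w)) := by
    have : y - x = t • w + (y - (x + t • w)) := by abel
    rw [this, map_add, map_smul, smul_eq_mul]
  rw [e3] at hang
  have h9 := hbd (y - (x + t • w))
  have h10 : 2 * c₁ * τ ^ 2 ≤ t * (C₁ * τ ^ 2) + C₁ * τ * (ε * t) := by
    have h11 : t * (chi y - chi x) w ≤ t * (C₁ * τ ^ 2) := mul_le_mul_of_nonneg_left h6 ht.le
    have h12 : C₁ * τ * ‖y - (x + t • w)‖ ≤ C₁ * τ * (ε * t) :=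
      mul_le_mul_of_nonneg_left hyd (by positivity)
    linarith
  have h13 : t * C₁ ≤ c₁ := by
    have h14 : t ≤ c₁ / C₁ := htε.le.trans hε2
    rw [le_div_iff₀ hCp] at h14
    exact h14
  have h17 : C₁ * ε ≤ c₁ * W / 4 := by
    have h18 := mul_le_mul_of_nonneg_left hε3 hCp.le
    have e4 : C₁ * (c₁ * W / (4 * C₁)) = c₁ * W / 4 := by
      field_simp
    linarith
  exact glue_numeric hc hWp ht hτp hτ h10 h13 h17

/-- **Gluing.**  The derivative of the extension is constant on a patch. -/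
theorem Patch.exists_linearN [FiniteDimensional ℝ Y] (C : C1Ctx g h) (hdim : 3 ≤ finrank ℝ X)
    (hdimY : finrank ℝ X = finrank ℝ Y) (P : Patch g F c₁ C₁) {x : X} (hx : x ∈ F) :
    ∃ L : X →L[ℝ] Y, ∀ u ∈ F, dT g u = L := by
  obtain ⟨L, hL, hsep⟩ := P.exists_tangent_linearN C.dnX hdim hx
  have hinj := P.L_injectiveN C hdim hL hsep
  have hsurj : Function.Surjective L :=
    (LinearMap.injective_iff_surjective_of_finrank_eq_finrank (f := (L : X →ₗ[ℝ] Y))
      hdimY).1 hinj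
  refine ⟨L, fun u hu => ?_⟩
  ext v
  have hu1 := P.chi_self C.dnX hu
  have h1 : chi u (v - chi u v • u) = 0 := by
    rw [map_sub, map_smul, hu1, smul_eq_mul, mul_one, sub_self]
  have h2 := hL u hu _ h1
  have h3 : dT g u u = L u := by
    rw [C.dT_unit_self (P.unit u hu), P.L_eq_gN C hdim hL hsurj hu]
  have e1 : v = (v - chi u v • u) + chi u v • u := by abel
  rw [e1, map_add, map_add, h2, map_smul, map_smul, h3]

end ChordsN

end GlueN

end Vale.Agent.Lib.P084
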