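import Mathlib
import Vale.Agent.Lib.P084.Rig.GlueN

/-! The derivative of a continuously differentiable norm is differentiable almost everywhere. -/

namespace Vale.Agent.Lib.P084

open Set Metric Filter Topology MeasureTheory Module
open scoped NNReal ENNReal RealInnerProductSpace

section AeDiff

variable {X : Type*} [NormedAddCommGroup X] [NormedSpace ℝ X]
  {E' : Type*} [NormedAddCommGroup E'] [InnerProductSpace ℝ E'] [FiniteDimensional ℝ E']
  (e : X ≃L[ℝ] E')

/-- From the Euclidean gradient to the derivative of the norm. -/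
noncomputable def gradMap : E' →ₗ[ℝ] (X →L[ℝ] ℝ) where
  toFun v := (innerSL ℝ v).comp (e : X →L[ℝ] E')
  map_add' := fun u v => by
    ext w
    simp [inner_add_left]
  map_smul' := fun c v => by
    ext w
    simp [inner_smul_left]

lemma chi_eq_gradMap (z : X) : chi z = gradMap e (gradN e z) := by
  ext w
  simp [gradMap, inner_gradN]

lemma gradN_continuousAt (hD : ∀ z : X, z ≠ 0 → Dn z) {z : X} (hz : z ≠ 0) :
    ContinuousAt (gradN e) z := by
  rw [ContinuousAt, tendsto_iff_norm_sub_tendsto_zero]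
  have h1 := (chi_continuousAt hD hz).tendsto
  rw [tendsto_iff_norm_sub_tendsto_zero] at h1
  have h2 := h1.const_mul ‖(e.symm : E' →L[ℝ] X)‖
  rw [mul_zero] at h2
  exact squeeze_zero (fun _ => norm_nonneg _) (fun a => norm_gradN_sub_le e a z) h2

/-- At a good point of the inverse map the derivative of the norm is differentiable. -/
lemma chi_diff_of_good (hD : ∀ z : X, z ≠ 0 → Dn z) {J : E' → E'}
    (hJ : ∀ z : X, Dn z → J (psiN e z) = e z) {z : X} (hz : z ≠ 0)
    (hd : DifferentiableAt ℝ J (psiN e z)) (hdet : (fderiv ℝ J (psiN e z)).det ≠ 0) :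
    DifferentiableAt ℝ (fun w : X => chi w) z := by
  have hinj := injective_of_det_ne hdet
  obtain ⟨f', hf'⟩ : ∃ f' : E' ≃L[ℝ] E', (f' : E' →L[ℝ] E') = fderiv ℝ J (psiN e z) :=
    ⟨(LinearEquiv.ofInjectiveEndo (fderiv ℝ J (psiN e z) : E' →ₗ[ℝ] E')
      hinj).toContinuousLinearEquiv, by
        ext v
        rfl⟩
  obtain ⟨Ψ, hΨ⟩ : ∃ Ψ : E' → E', Ψ = fun y => psiN e (e.symm y) := ⟨_, rfl⟩
  have hΨz : Ψ (e z) = psiN e z := by
    rw [hΨ]
    simp
  have hgc := gradN_continuousAt e hD hz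
  have hpc : ContinuousAt (psiN e) z := e.continuous.continuousAt.add hgc
  have hΨc : ContinuousAt Ψ (e z) := by
    rw [hΨ]
    refine ContinuousAt.comp (g := psiN e) (f := e.symm) ?_ e.symm.continuous.continuousAt
    simpa using hpc
  have hf : HasFDerivAt J (f' : E' →L[ℝ] E') (Ψ (e z)) := by
    rw [hΨz, hf']
    exact hd.hasFDerivAt
  have hfg : ∀ᶠ y in 𝓝 (e z), J (Ψ y) = y := by
    have h1 : ∀ᶠ y in 𝓝 (e z), e.symm y ≠ 0 :=
      e.symm.continuous.continuousAt.eventually_ne (by simpa using hz)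
    filter_upwards [h1] with y hy
    rw [hΨ]
    simp only
    rw [hJ _ (hD _ hy)]
    simp
  have h2 := HasFDerivAt.of_local_left_inverse hΨc hf hfg
  have h3 : HasFDerivAt (fun w => Ψ (e w)) ((f'.symm : E' →L[ℝ] E').comp (e : X →L[ℝ] E')) z :=
    h2.comp z e.hasFDerivAt
  have h4 : DifferentiableAt ℝ (gradN e) z := by
    have h5 : gradN e = fun w => Ψ (e w) - e w := by
      funext w
      rw [hΨ]
      simp [psiN]
    rw [h5]
    exact h3.differentiableAt.sub e.differentiableAt
  have h6 : (fun w : X => chi w) = fun w => (LinearMap.toContinuousLinearMap (gradMap e)) (gradN e w) := by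
    funext w
    rw [chi_eq_gradMap e w]
    rfl
  rw [h6]
  exact (LinearMap.toContinuousLinearMap (gradMap e)).differentiableAt.comp z h4

end AeDiff

section AeMain

variable {X : Type*} [NormedAddCommGroup X] [NormedSpace ℝ X] [FiniteDimensional ℝ X]
  [MeasurableSpace X] [BorelSpace X]

/-- The derivative of a differentiable norm is differentiable almost everywhere. -/
theorem ae_chi_diff (hD : ∀ z : X, z ≠ 0 → Dn z) :
    ∀ᵐ z ∂(μH[(finrank ℝ X : ℝ)] : Measure X), z ≠ 0 → DifferentiableAt ℝ (fun w : X => chi w) z := by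
  obtain ⟨J, K, hJL, hJ⟩ := exists_minty (toEuclidean (E := X))
  filter_upwards [ae_good_minty (toEuclidean (E := X)) hJL hJ] with z hz h0
  exact chi_diff_of_good _ hD hJ h0 hz.2.1 hz.2.2

end AeMain

section Cone

variable {X Y : Type*} [NormedAddCommGroup X] [NormedSpace ℝ X] [NormedAddCommGroup Y]
  [NormedSpace ℝ Y]

lemma chi_diff_smul {z : X} (hz : DifferentiableAt ℝ (fun w : X => chi w) z) {t : ℝ} (ht : 0 < t) :
    DifferentiableAt ℝ (fun w : X => chi w) (t • z) := by
  have h1 : (fun w : X => chi w) = (fun w : X => chi w) ∘ fun w : X => t⁻¹ • w := by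
    funext w
    simp only [Function.comp]
    rw [chi_smul (inv_pos.2 ht)]
  rw [h1]
  refine DifferentiableAt.comp (t • z) ?_ (differentiableAt_id.const_smul t⁻¹)
  rwa [smul_smul, inv_mul_cancel₀ ht.ne', one_smul]

variable [FiniteDimensional ℝ X] [FiniteDimensional ℝ Y] [MeasurableSpace X] [BorelSpace X]
  {g : X → Y} {h : Y → X}

/-- Points where the derivative of the norm is differentiable, also at the image. -/
theorem exists_second_cone (C : C1Ctx g h) {K : Set X} (hKc : ∀ z ∈ K, ∀ a : ℝ, 0 < a → a • z ∈ K)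
    (hKμ : (μH[(finrank ℝ X : ℝ)] : Measure X) K ≠ 0) (hK0 : ∀ z ∈ K, z ≠ 0) :
    ∃ K' ⊆ K, (∀ z ∈ K', ∀ a : ℝ, 0 < a → a • z ∈ K') ∧
      (μH[(finrank ℝ X : ℝ)] : Measure X) K' ≠ 0 ∧
      ∀ z ∈ K', DifferentiableAt ℝ (fun w : X => chi w) z ∧
        DifferentiableAt ℝ (fun w : Y => chi w) (radial g z) := by
  let _ : MeasurableSpace Y := borel Y
  have : BorelSpace Y := ⟨rfl⟩
  have hX := ae_chi_diff C.dnX
  have hY := ae_chi_diff C.dnY
  rw [ae_iff] at hX hY
  obtain ⟨NX, hNX⟩ : ∃ NX : Set X, NX = {z | ¬(z ≠ 0 → DifferentiableAt ℝ (fun w : X => chi w) z)} :=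
    ⟨_, rfl⟩
  obtain ⟨NY, hNY⟩ : ∃ NY : Set Y, NY = {z | ¬(z ≠ 0 → DifferentiableAt ℝ (fun w : Y => chi w) z)} :=
    ⟨_, rfl⟩
  rw [← hNX] at hX
  rw [← hNY] at hY
  have hdim := finrank_eq_of_sphereIso C.iso
  have hI : (μH[(finrank ℝ X : ℝ)] : Measure X) (radial h '' NY) = 0 := by
    have h3 := ((radial_lipschitz C.iso.symm).lipschitzOnWith (s := NY)).hausdorffMeasure_image_le
      (d := (finrank ℝ X : ℝ)) (by positivity)
    rw [hdim, hY, mul_zero] at h3
    rw [hdim]
    exact le_antisymm h3 zero_le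
  refine ⟨K \ (NX ∪ radial h '' NY), sdiff_subset, ?_, ?_, ?_⟩
  · rintro z ⟨hz, hz2⟩ a ha
    refine ⟨hKc z hz a ha, ?_⟩
    rintro (hb | ⟨w, hw, hwe⟩)
    · apply hz2
      left
      rw [hNX] at hb ⊢
      simp only [mem_ofPred_eq, Classical.not_imp] at hb ⊢
      refine ⟨hK0 z hz, fun hd => hb.2 (chi_diff_smul hd ha)⟩
    · apply hz2
      right
      have hi : 0 < a⁻¹ := inv_pos.2 ha
      refine ⟨a⁻¹ • w, ?_, ?_⟩
      · rw [hNY] at hw ⊢
        simp only [mem_ofPred_eq, Classical.not_imp] at hw ⊢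
        refine ⟨smul_ne_zero hi.ne' hw.1, fun hd => hw.2 ?_⟩
        have := chi_diff_smul hd ha
        rwa [smul_smul, mul_inv_cancel₀ ha.ne', one_smul] at this
      · rw [radial_smul h hi.le, hwe, smul_smul, inv_mul_cancel₀ ha.ne', one_smul]
  · intro h0
    apply hKμ
    refine measure_mono_null (t := (K \ (NX ∪ radial h '' NY)) ∪ (NX ∪ radial h '' NY)) ?_
      (measure_union_null h0 (measure_union_null hX hI))
    intro z hz
    by_cases hb : z ∈ NX ∪ radial h '' NY
    · exact Or.inr hb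
    · exact Or.inl ⟨hz, hb⟩
  · rintro z ⟨hz, hz2⟩
    have hz0 := hK0 z hz
    constructor
    · by_contra hd
      exact hz2 (Or.inl (by
        rw [hNX]
        simp only [mem_ofPred_eq, Classical.not_imp]
        exact ⟨hz0, hd⟩))
    · by_contra hd
      refine hz2 (Or.inr ⟨radial g z, ?_, radial_symm C.iso z⟩)
      rw [hNY]
      simp only [mem_ofPred_eq, Classical.not_imp]
      exact ⟨radial_ne_zero C.iso hz0, hd⟩

end Cone

end Vale.Agent.Lib.P084
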