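import Mathlib

/-! Linear algebra: symmetric forms and Rayleigh quotients. -/

namespace Vale.Agent.Lib.P084

open Set Metric Filter Topology Module

section Forms

variable {V : Type*} [NormedAddCommGroup V] [NormedSpace ℝ V]

/-- Two independent vectors. -/
def Ind (u w : V) : Prop := ∀ s t : ℝ, s • u + t • w = 0 → s = 0 ∧ t = 0

lemma Ind.symm {u w : V} (h : Ind u w) : Ind w u := fun s t e => by
  have := h t s (by rw [add_comm]; exact e)
  exact ⟨this.2, this.1⟩

lemma Ind.ne_left {u w : V} (h : Ind u w) : u ≠ 0 := fun e => by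
  have := h 1 0 (by simp [e])
  exact one_ne_zero this.1

lemma Ind.add_right {u w : V} (h : Ind u w) : Ind u (u + w) := fun s t e => by
  have e' : (s + t) • u + t • w = 0 := by
    rw [← e]
    module
  obtain ⟨h1, h2⟩ := h _ _ e'
  exact ⟨by linarith, h2⟩

lemma Ind.smul_left {u w : V} (h : Ind u w) {c : ℝ} (hc : c ≠ 0) : Ind (c • u) w := fun s t e => by
  have e' : (s * c) • u + t • w = 0 := by
    rw [← e]
    module
  obtain ⟨h1, h2⟩ := h _ _ e'
  exact ⟨(mul_eq_zero.1 h1).resolve_right hc, h2⟩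

lemma not_ind {u w : V} (hw : w ≠ 0) (h : ¬ Ind u w) : ∃ c : ℝ, u = c • w := by
  unfold Ind at h
  push Not at h
  obtain ⟨s, t, e, h2⟩ := h
  have hs : s ≠ 0 := by
    intro hs
    have h3 := h2 hs
    rw [hs, zero_smul, zero_add] at e
    exact (smul_ne_zero h3 hw) e
  refine ⟨-(s⁻¹ * t), ?_⟩
  have e2 : u = s⁻¹ • (s • u) := by rw [smul_smul, inv_mul_cancel₀ hs, one_smul]
  have e3 : s • u = -(t • w) := eq_neg_of_add_eq_zero_left e
  rw [e2, e3]
  module

variable [FiniteDimensional ℝ V]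

/-- A basis of small vectors. -/
lemma exists_small_basis {κ : ℝ} (hκ : 0 < κ) :
    ∃ b : Basis (Fin (finrank ℝ V)) ℝ V, ∀ i, ‖b i‖ < κ := by
  obtain b₀ := Module.finBasis ℝ V
  have hw : ∀ i, IsUnit (κ / (2 * (‖b₀ i‖ + 1))) := fun i =>
    (ne_of_gt (by positivity)).isUnit
  refine ⟨b₀.isUnitSMul hw, fun i => ?_⟩
  rw [Basis.isUnitSMul_apply, norm_smul, Real.norm_of_nonneg (by positivity)]
  have h0 := norm_nonneg (b₀ i)
  rw [div_mul_eq_mul_div, div_lt_iff₀ (by positivity)]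
  nlinarith

lemma basis_ind {ι : Type*} (b : Basis ι ℝ V) {i j : ι} (hij : i ≠ j) : Ind (b i) (b j) :=
  fun s t e => by
  have h1 := congrArg (fun v => b.repr v i) e
  have h2 := congrArg (fun v => b.repr v j) e
  simp [Basis.repr_self, Finsupp.single_apply, hij, hij.symm] at h1 h2
  exact ⟨h1, h2⟩

lemma basis_ne {ι : Type*} (b : Basis ι ℝ V) (i : ι) : b i ≠ 0 := b.ne_zero i

/-- A symmetry on small independent vectors comes from a symmetric form. -/
theorem sym_form (hdim : 2 ≤ finrank ℝ V) {κ : ℝ} (hκ : 0 < κ) (L : V → V →ₗ[ℝ] ℝ)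
    (hL : ∀ u w, ‖u‖ < κ → ‖w‖ < κ → Ind u w → L u w = L w u) :
    ∃ B : V →ₗ[ℝ] V →ₗ[ℝ] ℝ, (∀ u w, B u w = B w u) ∧
      ∀ u, ‖u‖ < κ → u ≠ 0 → ∀ w, L u w = B u w := by
  obtain ⟨b, hb⟩ := exists_small_basis (V := V) (half_pos hκ)
  have hb' : ∀ i, ‖b i‖ < κ := fun i => (hb i).trans (half_lt_self hκ)
  have hbb : ∀ i j, ‖b i + b j‖ < κ := fun i j => by
    refine (norm_add_le _ _).trans_lt ?_
    linarith [hb i, hb j]
  have hsym : ∀ i j, L (b i) (b j) = L (b j) (b i) := by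
    intro i j
    by_cases hij : i = j
    · rw [hij]
    · exact hL _ _ (hb' i) (hb' j) (basis_ind b hij)
  have hother : ∀ j : Fin (finrank ℝ V), ∃ i, i ≠ j := by
    intro j
    have : Nontrivial (Fin (finrank ℝ V)) := Fin.nontrivial_iff_two_le.2 hdim
    exact exists_ne j
  have h1 : ∀ u, ‖u‖ < κ → u ≠ 0 → ∀ j, L u (b j) = L (b j) u := by
    intro u hu hu0 j
    by_cases hI : Ind u (b j)
    · exact hL _ _ hu (hb' j) hI
    obtain ⟨c, rfl⟩ := not_ind (b.ne_zero j) hI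
    have hc : c ≠ 0 := fun e => hu0 (by rw [e, zero_smul])
    obtain ⟨i, hi⟩ := hother j
    have hI1 : Ind (b j) (b i) := basis_ind b hi.symm
    have hI2 : Ind (c • b j) (b i) := hI1.smul_left hc
    have hI3 : Ind (b j) (b j + b i) := hI1.add_right
    have hI4 : Ind (c • b j) (b j + b i) := hI3.smul_left hc
    have e1 : L (c • b j) (b j) = L (c • b j) (b j + b i) - L (c • b j) (b i) := by
      rw [map_add]
      ring
    rw [e1, hL _ _ hu (hbb j i) hI4, hL _ _ hu (hb' i) hI2, map_smul, map_smul, smul_eq_mul,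
      smul_eq_mul, ← mul_sub, map_smul, smul_eq_mul, ← hL _ _ (hb' j) (hbb j i) hI3,
      ← hL _ _ (hb' j) (hb' i) hI1, map_add]
    ring
  refine ⟨Matrix.toBilin b (Matrix.of fun i j => L (b i) (b j)), ?_, ?_⟩
  · intro u w
    rw [Matrix.toBilin_apply, Matrix.toBilin_apply, Finset.sum_comm]
    refine Finset.sum_congr rfl fun i _ => Finset.sum_congr rfl fun j _ => ?_
    simp only [Matrix.of_apply, smul_eq_mul]
    rw [hsym j i]
    ring
  · intro u hu hu0 w
    rw [Matrix.toBilin_apply]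
    have e1 : L u w = ∑ j, b.repr w j * L (b j) u := by
      conv_lhs => rw [← b.sum_repr w]
      rw [map_sum]
      refine Finset.sum_congr rfl fun j _ => ?_
      rw [map_smul, h1 u hu hu0 j, smul_eq_mul]
    rw [e1, Finset.sum_comm]
    refine Finset.sum_congr rfl fun j _ => ?_
    conv_lhs => rw [← b.sum_repr u]
    rw [map_sum, Finset.mul_sum]
    refine Finset.sum_congr rfl fun i _ => ?_
    simp only [Matrix.of_apply, smul_eq_mul, map_smul]
    rw [hsym j i]
    ring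

lemma linear_term_zero {a b : ℝ} (h : ∀ t : ℝ, 2 * t * a + t ^ 2 * b ≤ 0) : a = 0 := by
  obtain ⟨s, hs⟩ : ∃ s, s = 1 / (|b| + 1) := ⟨_, rfl⟩
  have hsp : 0 < s := by
    rw [hs]
    positivity
  have h1 := h (s * a)
  have h2 : s * |b| ≤ 1 := by
    rw [hs, div_mul_eq_mul_div, one_mul, div_le_one (by positivity)]
    linarith
  have h3 : -1 ≤ s * b := by
    have := neg_abs_le b
    nlinarith
  have h4 : 0 ≤ s * a ^ 2 * (2 + s * b - 1) := by
    apply mul_nonneg (by positivity)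
    linarith
  have h5 : s * a ^ 2 ≤ 0 := by
    have e : 2 * (s * a) * a + (s * a) ^ 2 * b = s * a ^ 2 * (2 + s * b) := by ring
    rw [e] at h1
    nlinarith
  have h6 : a ^ 2 ≤ 0 := by
    by_contra hc
    push Not at hc
    have := mul_pos hsp hc
    linarith
  have h7 : a ^ 2 = 0 := le_antisymm h6 (sq_nonneg a)
  exact pow_eq_zero_iff (two_ne_zero) |>.1 h7

lemma continuous_form (B : V →ₗ[ℝ] V →ₗ[ℝ] ℝ) : Continuous fun v => B v v := by
  let B₁ : V →ₗ[ℝ] V →L[ℝ] ℝ :=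
    (LinearMap.toContinuousLinearMap : (V →ₗ[ℝ] ℝ) ≃ₗ[ℝ] V →L[ℝ] ℝ).toLinearMap ∘ₗ B
  have e : ∀ v, B v v = (LinearMap.toContinuousLinearMap B₁ v) v := fun v => rfl
  simp_rw [e]
  exact (LinearMap.toContinuousLinearMap B₁).continuous.clm_apply continuous_id

/-- The largest Rayleigh quotient. -/
theorem rayleigh_max [Nontrivial V] (B P : V →ₗ[ℝ] V →ₗ[ℝ] ℝ) (hB : ∀ u w, B u w = B w u)
    (hP : ∀ u w, P u w = P w u) (hpos : ∀ v, v ≠ 0 → 0 < P v v) :
    ∃ τ : V, τ ≠ 0 ∧ ∃ ν : ℝ, (∀ v, B τ v = ν * P τ v) ∧ ∀ v, B v v ≤ ν * P v v := by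
  have hne : (sphere (0 : V) 1).Nonempty := NormedSpace.sphere_nonempty.2 zero_le_one
  have hc : ContinuousOn (fun v => B v v / P v v) (sphere (0 : V) 1) := by
    refine (continuous_form B).continuousOn.div (continuous_form P).continuousOn fun v hv => ?_
    have : v ≠ 0 := by
      rintro rfl
      simp at hv
    exact (hpos v this).ne'
  obtain ⟨τ, hτ, hmax⟩ := (isCompact_sphere (0 : V) 1).exists_isMaxOn hne hc
  have hτ0 : τ ≠ 0 := by
    rintro rfl
    simp at hτ
  obtain ⟨ν, hν⟩ : ∃ ν, ν = B τ τ / P τ τ := ⟨_, rfl⟩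
  have hτν : B τ τ = ν * P τ τ := by
    rw [hν, div_mul_cancel₀ _ (hpos τ hτ0).ne']
  have hle : ∀ v, B v v ≤ ν * P v v := by
    intro v
    by_cases hv : v = 0
    · simp [hv]
    have hn : 0 < ‖v‖ := norm_pos_iff.2 hv
    have hs : ‖v‖⁻¹ • v ∈ sphere (0 : V) 1 := by
      rw [mem_sphere_zero_iff_norm, norm_smul, norm_inv, norm_norm, inv_mul_cancel₀ hn.ne']
    have h1 := hmax hs
    simp only [mem_setOf_eq] at h1
    rw [← hν] at h1
    simp only [map_smul, LinearMap.smul_apply, smul_eq_mul] at h1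
    have hp := hpos v hv
    have e : ‖v‖⁻¹ * (‖v‖⁻¹ * B v v) / (‖v‖⁻¹ * (‖v‖⁻¹ * P v v)) = B v v / P v v := by
      field_simp
    rw [e, div_le_iff₀ hp] at h1
    exact h1
  refine ⟨τ, hτ0, ν, fun v => ?_, hle⟩
  have h2 : B τ v - ν * P τ v = 0 := by
    refine linear_term_zero (b := B v v - ν * P v v) fun t => ?_
    have h3 := hle (τ + t • v)
    simp only [map_add, map_smul, LinearMap.add_apply, LinearMap.smul_apply, smul_eq_mul] at h3
    rw [hB v τ, hP v τ] at h3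
    nlinarith
  linarith

/-- A symmetric form with only zero eigenvalues vanishes. -/
theorem form_zero_of_eig [Nontrivial V] (B P : V →ₗ[ℝ] V →ₗ[ℝ] ℝ) (hB : ∀ u w, B u w = B w u)
    (hP : ∀ u w, P u w = P w u) (hpos : ∀ v, v ≠ 0 → 0 < P v v)
    (hE : ∀ τ : V, τ ≠ 0 → ∀ ν : ℝ, (∀ v, B τ v = ν * P τ v) → ν = 0) (u w : V) : B u w = 0 := by
  obtain ⟨τ, hτ, ν, h1, h2⟩ := rayleigh_max B P hB hP hpos
  obtain ⟨τ', hτ', ν', h1', h2'⟩ := rayleigh_max (-B) P (fun u w => by simp [hB u w]) hP hpos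
  have h3 : ν = 0 := hE τ hτ ν h1
  have h4 : -ν' = 0 := hE τ' hτ' (-ν') fun v => by
    have := h1' v
    simp only [LinearMap.neg_apply] at this
    linarith
  have h5 : ν' = 0 := by linarith
  have h6 : ∀ v, B v v = 0 := by
    intro v
    have h7 := h2 v
    have h8 := h2' v
    simp only [LinearMap.neg_apply] at h8
    rw [h3] at h7
    rw [h5] at h8
    linarith
  have h9 := h6 (u + w)
  simp only [map_add, LinearMap.add_apply] at h9
  rw [h6 u, h6 w, hB w u] at h9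
  linarith

end Forms

end Vale.Agent.Lib.P084
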