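import Mathlib
import Vale.Agent.Lib.P084.Corner.Dim3

/-! Blow up sequences at a point of twice differentiability of the norm. -/

namespace Vale.Agent.Lib.P084

open Set Metric Filter Topology Module

section Blow

variable {X Y : Type*} [NormedAddCommGroup X] [NormedSpace ℝ X] [NormedAddCommGroup Y]
  [NormedSpace ℝ Y]

variable {g : X → Y} {h : Y → X}

/-- The standing data at the base point. -/
structure RPt (g : X → Y) (h : Y → X) (x₀ : X) (Q : X →L[ℝ] X →L[ℝ] ℝ)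
    (Q' : Y →L[ℝ] Y →L[ℝ] ℝ) : Prop where
  C : C1Ctx g h
  unit : ‖x₀‖ = 1
  hQ : HasFDerivAt (fun z : X => chi z) Q x₀
  hQ' : HasFDerivAt (fun z : Y => chi z) Q' (g x₀)
  pos : ∀ u, chi x₀ u = 0 → u ≠ 0 → 0 < Q u u

/-- The sequences of scales, with the bound on the differences of derivatives. -/
structure Scl (g : X → Y) (x₀ : X) (E : Set X) (l : Filter ℕ) (r δ : ℕ → ℝ) : Prop where
  Eunit : ∀ x ∈ E, ‖x‖ = 1
  rpos : ∀ n, 0 < r n
  rlim : Tendsto r l (𝓝 0)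
  dpos : ∀ n, 0 < δ n
  bd : ∀ n a b, a ∈ E → b ∈ E → ‖a - x₀‖ < r n → ‖b - x₀‖ < r n → ∀ d, chi a d = 0 → chi b d = 0 →
    ‖dT g a d - dT g b d‖ ≤ δ n * ‖d‖

/-- A blow up sequence: points of `E` in the balls, with rescaled limit `α`. -/
structure BSeq (x₀ : X) (E : Set X) (l : Filter ℕ) (r : ℕ → ℝ) (a : ℕ → X) (α : X) : Prop where
  mem : ∀ᶠ n in l, a n ∈ E ∧ ‖a n - x₀‖ < r n
  lim : Tendsto (fun n => (r n)⁻¹ • (a n - x₀)) l (𝓝 α)

variable {x₀ : X} {E : Set X} {l : Filter ℕ} {r δ : ℕ → ℝ} {a b c : ℕ → X} {α β γ : X}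
variable {Q : X →L[ℝ] X →L[ℝ] ℝ} {Q' : Y →L[ℝ] Y →L[ℝ] ℝ}

lemma hasFDerivAt_seq {W : Type*} [NormedAddCommGroup W] [NormedSpace ℝ W] {F : X → W}
    {F' : X →L[ℝ] W} {z : X} (hF : HasFDerivAt F F' z) {c : ℕ → ℝ} {d : ℕ → X} {v : X}
    (dlim : Tendsto d l (𝓝 0)) (cdlim : Tendsto (fun n => c n • d n) l (𝓝 v)) :
    Tendsto (fun n => c n • (F (z + d n) - F z)) l (𝓝 (F' v)) :=
  (hasFDerivWithinAt_univ.2 hF).lim dlim (.of_forall fun _ => mem_univ _) cdlim

lemma Scl.smul_inv (S : Scl g x₀ E l r δ) (n : ℕ) (v : X) : r n • (r n)⁻¹ • v = v := by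
  rw [smul_smul, mul_inv_cancel₀ (S.rpos n).ne', one_smul]

lemma Scl.smul_inv' (S : Scl g x₀ E l r δ) (n : ℕ) (v : Y) : r n • (r n)⁻¹ • v = v := by
  rw [smul_smul, mul_inv_cancel₀ (S.rpos n).ne', one_smul]

lemma BSeq.sub_lim (S : Scl g x₀ E l r δ) (ha : BSeq x₀ E l r a α) :
    Tendsto (fun n => a n - x₀) l (𝓝 0) := by
  have h1 := S.rlim.smul ha.lim
  rw [zero_smul] at h1
  exact h1.congr fun n => S.smul_inv n _

lemma BSeq.tendsto (S : Scl g x₀ E l r δ) (ha : BSeq x₀ E l r a α) : Tendsto a l (𝓝 x₀) := by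
  have h1 := (ha.sub_lim S).add_const x₀
  rw [zero_add] at h1
  exact h1.congr fun n => sub_add_cancel _ _

lemma BSeq.unit (S : Scl g x₀ E l r δ) (ha : BSeq x₀ E l r a α) : ∀ᶠ n in l, ‖a n‖ = 1 :=
  ha.mem.mono fun _ hn => S.Eunit _ hn.1

/-- Differentiable maps along a blow up sequence. -/
lemma BSeq.lim_map {W : Type*} [NormedAddCommGroup W] [NormedSpace ℝ W] {F : X → W}
    {F' : X →L[ℝ] W} (S : Scl g x₀ E l r δ) (ha : BSeq x₀ E l r a α) (hF : HasFDerivAt F F' x₀) :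
    Tendsto (fun n => (r n)⁻¹ • (F (a n) - F x₀)) l (𝓝 (F' α)) := by
  have h1 := hasFDerivAt_seq hF (ha.sub_lim S) ha.lim
  refine h1.congr fun n => ?_
  rw [add_sub_cancel]

lemma BSeq.chi_lim (S : Scl g x₀ E l r δ) (R : RPt g h x₀ Q Q') (ha : BSeq x₀ E l r a α) :
    Tendsto (fun n => (r n)⁻¹ • (chi (a n) - chi x₀)) l (𝓝 (Q α)) :=
  ha.lim_map S R.hQ

lemma BSeq.chi_base (S : Scl g x₀ E l r δ) (R : RPt g h x₀ Q Q') (ha : BSeq x₀ E l r a α)
    [l.NeBot] : chi x₀ α = 0 := by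
  have h1 := ha.lim_map S (R.C.dnX x₀ (ne0_of_unit x₀ R.unit)).hasFDerivAt
  have h2 : (fun n => (r n)⁻¹ • (‖a n‖ - ‖x₀‖)) =ᶠ[l] fun _ => (0 : ℝ) := by
    filter_upwards [ha.unit S] with n hn
    rw [hn, R.unit, sub_self, smul_zero]
  exact tendsto_nhds_unique (h1.congr' h2) tendsto_const_nhds

lemma BSeq.g_lim (S : Scl g x₀ E l r δ) (R : RPt g h x₀ Q Q') (ha : BSeq x₀ E l r a α) :
    Tendsto (fun n => (r n)⁻¹ • (g (a n) - g x₀)) l (𝓝 (dT g x₀ α)) := by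
  have h1 := ha.lim_map S (R.C.hasFDerivAt (ne0_of_unit x₀ R.unit))
  rw [radial_of_unit g R.unit] at h1
  refine h1.congr' ?_
  filter_upwards [ha.unit S] with n hn
  rw [radial_of_unit g hn]

lemma RPt.unit_g (R : RPt g h x₀ Q Q') : ‖g x₀‖ = 1 := R.C.iso.map_g x₀ R.unit

lemma RPt.g0 (R : RPt g h x₀ Q Q') : g x₀ ≠ 0 := ne0_of_unit _ R.unit_g

lemma BSeq.g_tendsto (S : Scl g x₀ E l r δ) (R : RPt g h x₀ Q Q') (ha : BSeq x₀ E l r a α) :
    Tendsto (fun n => g (a n) - g x₀) l (𝓝 0) := by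
  have h1 := S.rlim.smul (ha.g_lim S R)
  rw [zero_smul] at h1
  exact h1.congr fun n => S.smul_inv' n _

/-- Second order expansion of the derivative of the norm of `Y` at midpoints. -/
lemma BSeq.sum_lim (S : Scl g x₀ E l r δ) (R : RPt g h x₀ Q Q') (ha : BSeq x₀ E l r a α)
    (hb : BSeq x₀ E l r b β) :
    Tendsto (fun n => (r n)⁻¹ • (chi (g (a n) + g (b n)) - chi (g x₀))) l
      (𝓝 (Q' ((1 / 2 : ℝ) • dT g x₀ (α + β)))) := by
  have h1 := ((ha.g_tendsto S R).add (hb.g_tendsto S R)).const_smul (1 / 2 : ℝ)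
  rw [add_zero, smul_zero] at h1
  have h2 := ((ha.g_lim S R).add (hb.g_lim S R)).const_smul (1 / 2 : ℝ)
  rw [← map_add] at h2
  have h3 := hasFDerivAt_seq R.hQ' (c := fun n => (r n)⁻¹) h1 (v := (1 / 2 : ℝ) • dT g x₀ (α + β))
    (h2.congr fun n => by
      simp only [smul_add]
      rw [smul_comm, smul_comm (r n)⁻¹ (1 / 2 : ℝ) (g (b n) - g x₀)])
  refine h3.congr fun n => ?_
  have e : g x₀ + (1 / 2 : ℝ) • (g (a n) - g x₀ + (g (b n) - g x₀)) =
      (1 / 2 : ℝ) • (g (a n) + g (b n)) := by module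
  rw [e, chi_smul (by norm_num)]

lemma BSeq.add_ne (S : Scl g x₀ E l r δ) (R : RPt g h x₀ Q Q') (ha : BSeq x₀ E l r a α)
    (hb : BSeq x₀ E l r b β) : ∀ᶠ n in l, a n + b n ≠ 0 := by
  have h1 := (ha.tendsto S).add (hb.tendsto S)
  have h2 : x₀ + x₀ ≠ 0 := by
    intro e
    have e2 : x₀ + x₀ = (2 : ℝ) • x₀ := by module
    rw [e2, smul_eq_zero] at e
    rcases e with e | e
    · norm_num at e
    · exact ne0_of_unit x₀ R.unit e
  exact h1.eventually_ne h2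

/-- The three point relation in the limit. -/
lemma three_point [FiniteDimensional ℝ X] [Nontrivial X] (S : Scl g x₀ E l r δ)
    (R : RPt g h x₀ Q Q') (ha : BSeq x₀ E l r a α)
    (hb : BSeq x₀ E l r b β) (hc : BSeq x₀ E l r c γ) [l.NeBot] {d : ℕ → X} {u v : Y}
    (hd : ∀ᶠ n in l, chi (a n) (d n) = 0 ∧ chi (b n) (d n) = 0 ∧ chi (c n) (d n) = 0)
    (hu : Tendsto (fun n => (δ n)⁻¹ • (dT g (a n) (d n) - dT g (b n) (d n))) l (𝓝 u))
    (hv : Tendsto (fun n => (δ n)⁻¹ • (dT g (c n) (d n) - dT g (b n) (d n))) l (𝓝 v)) :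
    Q' (dT g x₀ (γ - β)) u = Q' (dT g x₀ (α - β)) v := by
  have h1 := ha.sum_lim S R hb
  have h2 := hc.sum_lim S R hb
  have h3 := ha.sum_lim S R hc
  have h4 := tendsto_clm_apply (h3.sub h1) hu
  have h5 := tendsto_clm_apply (h3.sub h2) hv
  have h6 := h4.sub h5
  have h7 : ∀ᶠ n in l, ((r n)⁻¹ • (chi (g (a n) + g (c n)) - chi (g x₀)) -
      (r n)⁻¹ • (chi (g (a n) + g (b n)) - chi (g x₀)))
        ((δ n)⁻¹ • (dT g (a n) (d n) - dT g (b n) (d n))) -
      ((r n)⁻¹ • (chi (g (a n) + g (c n)) - chi (g x₀)) -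
      (r n)⁻¹ • (chi (g (c n) + g (b n)) - chi (g x₀)))
        ((δ n)⁻¹ • (dT g (c n) (d n) - dT g (b n) (d n))) = 0 := by
    filter_upwards [hd, ha.unit S, hb.unit S, hc.unit S, ha.add_ne S R hb, hc.add_ne S R hb,
      ha.add_ne S R hc] with n hd' ua ub uc n1 n2 n3
    obtain ⟨d1, d2, d3⟩ := hd'
    have r1 : chi (g (a n) + g (b n)) (dT g (a n) (d n)) =
        chi (g (a n) + g (b n)) (dT g (b n) (d n)) := by
      rw [R.C.chord_add ua ub n1 d1, R.C.chord_add' ua ub n1 d2]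
    have r2 : chi (g (c n) + g (b n)) (dT g (c n) (d n)) =
        chi (g (c n) + g (b n)) (dT g (b n) (d n)) := by
      rw [R.C.chord_add uc ub n2 d3, R.C.chord_add' uc ub n2 d2]
    have r3 : chi (g (a n) + g (c n)) (dT g (a n) (d n)) =
        chi (g (a n) + g (c n)) (dT g (c n) (d n)) := by
      rw [R.C.chord_add ua uc n3 d1, R.C.chord_add' ua uc n3 d3]
    simp only [_root_.sub_apply, _root_.smul_apply, map_smul, map_sub, smul_eq_mul]
    rw [r1, r2, r3]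
    ring
  have h8 := tendsto_nhds_unique (h6.congr' h7) tendsto_const_nhds
  have e : ∀ (p q : X) (w : Y), Q' ((1 / 2 : ℝ) • dT g x₀ (p + q)) w =
      (1 / 2) * (Q' (dT g x₀ p) w + Q' (dT g x₀ q) w) := by
    intro p q w
    simp only [map_add, map_smul, _root_.smul_apply, _root_.add_apply, smul_eq_mul]
  simp only [_root_.sub_apply, e] at h8
  simp only [map_sub, _root_.sub_apply]
  linarith

/-- The limit difference is tangent at the image of the base point. -/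
lemma tan_J [FiniteDimensional ℝ X] [Nontrivial X] (S : Scl g x₀ E l r δ)
    (R : RPt g h x₀ Q Q') (ha : BSeq x₀ E l r a α)
    (hb : BSeq x₀ E l r b β) [l.NeBot] {d : ℕ → X} {u : Y}
    (hd : ∀ᶠ n in l, chi (a n) (d n) = 0 ∧ chi (b n) (d n) = 0)
    (hu : Tendsto (fun n => (δ n)⁻¹ • (dT g (a n) (d n) - dT g (b n) (d n))) l (𝓝 u)) :
    chi (g x₀) u = 0 := by
  have h1 := (ha.g_tendsto S R).add (hb.g_tendsto S R)
  rw [add_zero] at h1
  have h2 : Tendsto (fun n => g (a n) + g (b n)) l (𝓝 ((2 : ℝ) • g x₀)) := by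
    have h3 := h1.add_const ((2 : ℝ) • g x₀)
    rw [zero_add] at h3
    refine h3.congr fun n => ?_
    module
  have h4 : (2 : ℝ) • g x₀ ≠ 0 := smul_ne_zero (by norm_num) R.g0
  have h5 := (chi_continuousAt R.C.dnY h4).tendsto.comp h2
  rw [chi_smul (by norm_num)] at h5
  have h6 := tendsto_clm_apply h5 hu
  refine tendsto_nhds_unique h6 (tendsto_const_nhds.congr' ?_)
  filter_upwards [hd, ha.unit S, hb.unit S, ha.add_ne S R hb] with n hd' ua ub n1
  simp only [Function.comp, map_smul, map_sub, smul_eq_mul]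
  rw [R.C.chord_add ua ub n1 hd'.1, R.C.chord_add' ua ub n1 hd'.2, sub_self, mul_zero]

/-- The limit difference is tangent at the image of the limit direction. -/
lemma tan_norm (S : Scl g x₀ E l r δ)
    (R : RPt g h x₀ Q Q') (ha : BSeq x₀ E l r a α)
    (hb : BSeq x₀ E l r b β) [l.NeBot] {d : ℕ → X} {u : Y} {d₀ : X}
    (hdd : Tendsto d l (𝓝 d₀)) (hd₀ : dT g x₀ d₀ ≠ 0)
    (hd : ∀ᶠ n in l, chi (a n) (d n) = 0 ∧ chi (b n) (d n) = 0)
    (hu : Tendsto (fun n => (δ n)⁻¹ • (dT g (a n) (d n) - dT g (b n) (d n))) l (𝓝 u)) :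
    chi (dT g x₀ d₀) u = 0 := by
  have hx₀ := ne0_of_unit x₀ R.unit
  have hA := (R.C.dT_continuousAt hx₀).tendsto
  have h1 : Tendsto (fun n => dT g (a n) (d n)) l (𝓝 (dT g x₀ d₀)) :=
    tendsto_clm_apply (hA.comp (ha.tendsto S)) hdd
  have h2 : Tendsto (fun n => dT g (b n) (d n)) l (𝓝 (dT g x₀ d₀)) :=
    tendsto_clm_apply (hA.comp (hb.tendsto S)) hdd
  have h3 := (chi_continuousAt R.C.dnY hd₀).tendsto
  have h4 := tendsto_clm_apply (h3.comp h1) hu
  have h5 := tendsto_clm_apply (h3.comp h2) hu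
  have hs : ∀ᶠ n in l, ‖dT g (a n) (d n)‖ = ‖dT g (b n) (d n)‖ := by
    filter_upwards [hd, ha.unit S, hb.unit S] with n hd' ua ub
    rw [R.C.norm_dT ua hd'.1, R.C.norm_dT ub hd'.2]
  refine le_antisymm ?_ ?_
  · refine le_of_tendsto h5 ?_
    filter_upwards [hs, h2.eventually_ne hd₀] with n hn n0
    simp only [Function.comp, map_smul, map_sub, smul_eq_mul]
    have h6 := chi_le (dT g (b n) (d n)) (dT g (a n) (d n))
    have h7 := (R.C.dnY _ n0).chi_self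
    have h8 : 0 < (δ n)⁻¹ := inv_pos.2 (S.dpos n)
    refine mul_nonpos_of_nonneg_of_nonpos h8.le ?_
    linarith
  · refine ge_of_tendsto h4 ?_
    filter_upwards [hs, h1.eventually_ne hd₀] with n hn n0
    simp only [Function.comp, map_smul, map_sub, smul_eq_mul]
    have h6 := chi_le (dT g (a n) (d n)) (dT g (b n) (d n))
    have h7 := (R.C.dnY _ n0).chi_self
    have h8 : 0 < (δ n)⁻¹ := inv_pos.2 (S.dpos n)
    refine mul_nonneg h8.le ?_
    linarith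

/-- The limit difference is tangent along the chord. -/
lemma tan_chord (S : Scl g x₀ E l r δ)
    (R : RPt g h x₀ Q Q') (ha : BSeq x₀ E l r a α)
    (hb : BSeq x₀ E l r b β) [l.NeBot] {d : ℕ → X} {u : Y}
    (hd : ∀ᶠ n in l, chi (a n) (d n) = 0 ∧ chi (b n) (d n) = 0)
    (hu : Tendsto (fun n => (δ n)⁻¹ • (dT g (a n) (d n) - dT g (b n) (d n))) l (𝓝 u))
    (hne : dT g x₀ (α - β) ≠ 0) : chi (dT g x₀ (α - β)) u = 0 := by
  have hαβ : α - β ≠ 0 := fun e => hne (by rw [e, map_zero])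
  have h0 : Tendsto (fun n => (r n)⁻¹ • (a n - b n)) l (𝓝 (α - β)) := by
    refine (ha.lim.sub hb.lim).congr fun n => ?_
    rw [← smul_sub]
    congr 1
    abel
  have h1 : Tendsto (fun n => (r n)⁻¹ • (g (a n) - g (b n))) l (𝓝 (dT g x₀ (α - β))) := by
    rw [map_sub]
    refine ((ha.g_lim S R).sub (hb.g_lim S R)).congr fun n => ?_
    rw [← smul_sub]
    congr 1
    abel
  have h3 := (chi_continuousAt R.C.dnY hne).tendsto
  have h4 := tendsto_clm_apply (h3.comp h1) hu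
  refine tendsto_nhds_unique h4 (tendsto_const_nhds.congr' ?_)
  filter_upwards [hd, ha.unit S, hb.unit S, h0.eventually_ne hαβ] with n hd' ua ub n0
  have hab : a n ≠ b n := by
    intro e
    apply n0
    rw [e, sub_self, smul_zero]
  simp only [Function.comp, map_smul, map_sub, smul_eq_mul]
  rw [chi_smul (inv_pos.2 (S.rpos n)), R.C.chord_sub ua ub hab hd'.1,
    R.C.chord_sub' ua ub hab hd'.2, sub_self, mul_zero]

end Blow

end Vale.Agent.Lib.P084
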