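import Mathlib
import Vale.Agent.Lib.P084.Rig.Blow

/-! The second derivative of the norm at the base point and its image. -/

namespace Vale.Agent.Lib.P084

open Set Metric Filter Topology Module

section Point

variable {X Y : Type*} [NormedAddCommGroup X] [NormedSpace ℝ X] [NormedAddCommGroup Y]
  [NormedSpace ℝ Y]

variable {g : X → Y} {h : Y → X} {x₀ : X}
variable {Q : X →L[ℝ] X →L[ℝ] ℝ} {Q' : Y →L[ℝ] Y →L[ℝ] ℝ}

lemma second_sym {E : Type*} [NormedAddCommGroup E] [NormedSpace ℝ E]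
    (hD : ∀ z : E, z ≠ 0 → Dn z) {z : E} (hz : z ≠ 0) {S : E →L[ℝ] E →L[ℝ] ℝ}
    (hS : HasFDerivAt (fun w : E => chi w) S z) (u v : E) : S u v = S v u := by
  refine second_derivative_symmetric_of_eventually (f := fun w : E => ‖w‖) ?_ hS u v
  filter_upwards [isOpen_ne.mem_nhds hz] with w hw
  exact (hD w hw).hasFDerivAt

lemma RPt.x0 (R : RPt g h x₀ Q Q') : x₀ ≠ 0 := ne0_of_unit x₀ R.unit

lemma RPt.sym (R : RPt g h x₀ Q Q') (u v : X) : Q u v = Q v u :=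
  second_sym R.C.dnX R.x0 R.hQ u v

lemma RPt.sym' (R : RPt g h x₀ Q Q') (u v : Y) : Q' u v = Q' v u :=
  second_sym R.C.dnY R.g0 R.hQ' u v

lemma RPt.J_A (R : RPt g h x₀ Q Q') (v : X) : chi (g x₀) (dT g x₀ v) = chi x₀ v := by
  have h1 := R.C.chi_dT R.x0 v
  rwa [radial_of_unit g R.unit] at h1

lemma RPt.inj (R : RPt g h x₀ Q Q') : Function.Injective (dT g x₀) := R.C.dT_injective R.unit

/-- The image of the second derivative. -/
lemma RPt.QQ [FiniteDimensional ℝ X] [Nontrivial X] (R : RPt g h x₀ Q Q') {u d : X}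
    (hu : chi x₀ u = 0) (hd : chi x₀ d = 0) : Q' (dT g x₀ u) (dT g x₀ d) = Q u d := by
  have hy := nline_hasDerivAt R.unit (R.C.dnX x₀ R.x0) hu
  have hy0 := nline_zero R.unit u
  have h1 : HasFDerivAt (radial g) (dT g x₀) (nline x₀ u 0) := by
    rw [hy0]
    exact R.C.hasFDerivAt R.x0
  have h2 : HasDerivAt (fun t => radial g (nline x₀ u t)) (dT g x₀ u) 0 := h1.comp_hasDerivAt 0 hy
  have h3 := (h2.const_add (g x₀)).const_smul (1 / 2 : ℝ)
  have e3 : (1 / 2 : ℝ) • (g x₀ + radial g (nline x₀ u 0)) = g x₀ := by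
    rw [hy0, radial_of_unit g R.unit]
    module
  have h4 : HasFDerivAt (fun z : Y => chi z) Q'
      ((1 / 2 : ℝ) • (g x₀ + radial g (nline x₀ u 0))) := by
    rw [e3]
    exact R.hQ'
  have h5 := h4.comp_hasDerivAt 0 h3
  have h6 := h5.clm_apply (hasDerivAt_const (0 : ℝ) (dT g x₀ d))
  have h7 := (hy.const_add x₀).const_smul (1 / 2 : ℝ)
  have e7 : (1 / 2 : ℝ) • (x₀ + nline x₀ u 0) = x₀ := by
    rw [hy0]
    module
  have h8 : HasFDerivAt (fun z : X => chi z) Q ((1 / 2 : ℝ) • (x₀ + nline x₀ u 0)) := by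
    rw [e7]
    exact R.hQ
  have h9 := h8.comp_hasDerivAt 0 h7
  have h10 := h9.clm_apply (hasDerivAt_const (0 : ℝ) d)
  have hne : ∀ᶠ t in 𝓝 (0 : ℝ), x₀ + nline x₀ u t ≠ 0 := by
    have hc : ContinuousAt (fun t => x₀ + nline x₀ u t) 0 := continuousAt_const.add hy.continuousAt
    have h00 : x₀ + nline x₀ u 0 ≠ 0 := by
      rw [hy0]
      intro e
      have e2 : x₀ + x₀ = (2 : ℝ) • x₀ := by module
      rw [e2, smul_eq_zero] at e
      rcases e with e | e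
      · norm_num at e
      · exact R.x0 e
    exact hc.eventually_ne h00
  have heq : (fun t => chi (((1 / 2 : ℝ) • fun t => g x₀ + radial g (nline x₀ u t)) t)
      (dT g x₀ d)) =ᶠ[𝓝 0]
      fun t => chi (((1 / 2 : ℝ) • fun t => x₀ + nline x₀ u t) t) d := by
    filter_upwards [hne, nline_unit R.unit u] with t ht hu1
    simp only [Pi.smul_apply]
    rw [chi_smul (by norm_num), chi_smul (by norm_num), radial_of_unit g hu1,
      R.C.chord_add R.unit hu1 ht hd]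
  have h11 := (h6.congr_of_eventuallyEq heq.symm).unique h10
  simp only [map_zero, add_zero, map_smul, _root_.smul_apply, smul_eq_mul] at h11
  linarith

lemma RPt.surj [FiniteDimensional ℝ X] [FiniteDimensional ℝ Y] (R : RPt g h x₀ Q Q')
    {v : Y} (hv : chi (g x₀) v = 0) : ∃ t, chi x₀ t = 0 ∧ dT g x₀ t = v := by
  have hdim := finrank_eq_of_sphereIso R.C.iso
  have hs : Function.Surjective (dT g x₀) := by
    have := (LinearMap.injective_iff_surjective_of_finrank_eq_finrank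
      (f := (dT g x₀ : X →ₗ[ℝ] Y)) hdim).1 R.inj
    exact this
  obtain ⟨t, rfl⟩ := hs v
  exact ⟨t, by rw [← R.J_A]; exact hv, rfl⟩

/-- Vectors orthogonal to a hyperplane of the tangent space lie on the complementary line. -/
lemma RPt.orth [FiniteDimensional ℝ X] [Nontrivial X] [FiniteDimensional ℝ Y]
    (R : RPt g h x₀ Q Q') {d : X} {v : Y} (hd : chi x₀ d = 0) (hd0 : d ≠ 0)
    (hJ : chi (g x₀) v = 0)
    (hW : ∀ w, chi x₀ w = 0 → Q d w = 0 → Q' (dT g x₀ w) v = 0) :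
    ∃ c : ℝ, v = c • dT g x₀ d := by
  obtain ⟨t, ht, rfl⟩ := R.surj hJ
  have hq := R.pos d hd hd0
  obtain ⟨c, hc⟩ : ∃ c, c = Q d t / Q d d := ⟨_, rfl⟩
  have hct : c * Q d d = Q d t := by rw [hc, div_mul_cancel₀ _ hq.ne']
  obtain ⟨t', ht'⟩ : ∃ t', t' = t - c • d := ⟨_, rfl⟩
  have h1 : chi x₀ t' = 0 := by rw [ht', map_sub, map_smul, ht, hd, smul_zero, sub_zero]
  have h2 : Q d t' = 0 := by
    rw [ht', map_sub, map_smul, smul_eq_mul, hct, sub_self]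
  have h3 := hW t' h1 h2
  rw [R.QQ h1 ht] at h3
  have h4 : Q t' t' = 0 := by
    have e : Q t' (t - c • d) = Q t' t - c * Q t' d := by
      rw [map_sub, map_smul, smul_eq_mul]
    rw [← ht', R.sym t' d, h2, h3] at e
    rw [e]
    ring
  have h5 : t' = 0 := by
    by_contra hne
    exact (R.pos t' h1 hne).ne' h4
  refine ⟨c, ?_⟩
  rw [ht', sub_eq_zero] at h5
  rw [h5, map_smul]

/-- A vector orthogonal to everything in sight vanishes. -/
lemma RPt.orth_zero [FiniteDimensional ℝ X] [Nontrivial X] [FiniteDimensional ℝ Y]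
    (R : RPt g h x₀ Q Q') {d : X} {v : Y} (hd : chi x₀ d = 0) (hd0 : d ≠ 0)
    (hJ : chi (g x₀) v = 0) (h1 : chi (dT g x₀ d) v = 0)
    (hW : ∀ w, chi x₀ w = 0 → Q d w = 0 → Q' (dT g x₀ w) v = 0) : v = 0 := by
  obtain ⟨c, rfl⟩ := R.orth hd hd0 hJ hW
  have hA : dT g x₀ d ≠ 0 := fun e => hd0 (R.inj (by rw [e, map_zero]))
  rw [map_smul, (R.C.dnY _ hA).chi_self, smul_eq_mul] at h1
  have hn : ‖dT g x₀ d‖ ≠ 0 := norm_ne_zero_iff.2 hA
  rw [(mul_eq_zero.1 h1).resolve_right hn, zero_smul]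

/-- The eigenvalue step. -/
lemma RPt.eig_zero [FiniteDimensional ℝ X] [Nontrivial X] [FiniteDimensional ℝ Y]
    [StrictConvexSpace ℝ Y]
    (R : RPt g h x₀ Q Q') {d τ : X} {G : Y} {ν : ℝ} (hd : chi x₀ d = 0) (hd0 : d ≠ 0)
    (hτ : chi x₀ τ = 0) (hτ0 : τ ≠ 0) (hdτ : Q d τ = 0) (hJ : chi (g x₀) G = 0)
    (h1 : chi (dT g x₀ d) G = 0) (h2 : chi (dT g x₀ τ) G = 0)
    (hL : ∀ w, chi x₀ w = 0 → Q d w = 0 → Q' (dT g x₀ w) G = ν * Q τ w) : ν = 0 := by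
  by_contra hν
  have hv : ∃ c : ℝ, G - ν • dT g x₀ τ = c • dT g x₀ d := by
    refine R.orth hd hd0 ?_ fun w hw hdw => ?_
    · rw [map_sub, map_smul, R.J_A, hτ, hJ, smul_zero, sub_zero]
    · rw [map_sub, map_smul, hL w hw hdw, R.QQ hw hτ, smul_eq_mul, R.sym w τ, sub_self]
  obtain ⟨c, hc⟩ := hv
  have hG : G = ν • dT g x₀ τ + c • dT g x₀ d := by rw [← hc]; abel
  obtain ⟨a₀, ha₀⟩ : ∃ a₀, a₀ = dT g x₀ d := ⟨_, rfl⟩
  obtain ⟨b₀, hb₀⟩ : ∃ b₀, b₀ = dT g x₀ τ := ⟨_, rfl⟩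
  have ha0 : a₀ ≠ 0 := fun e => hd0 (R.inj (by rw [← ha₀, e, map_zero]))
  have hb0 : b₀ ≠ 0 := fun e => hτ0 (R.inj (by rw [← hb₀, e, map_zero]))
  rw [← ha₀, ← hb₀] at hG
  rw [← ha₀] at h1
  rw [← hb₀] at h2
  have hN₀ : 0 < ‖a₀‖ := norm_pos_iff.2 ha0
  have hN : 0 < ‖b₀‖ := norm_pos_iff.2 hb0
  have e1 : ν * chi a₀ b₀ + c * ‖a₀‖ = 0 := by
    rw [hG, map_add, map_smul, map_smul, (R.C.dnY _ ha0).chi_self, smul_eq_mul, smul_eq_mul] at h1
    exact h1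
  have e2 : ν * ‖b₀‖ + c * chi b₀ a₀ = 0 := by
    rw [hG, map_add, map_smul, map_smul, (R.C.dnY _ hb0).chi_self, smul_eq_mul, smul_eq_mul] at h2
    exact h2
  have bad : ∀ k : ℝ, a₀ = k • b₀ → False := by
    intro k hk
    have hk0 : k ≠ 0 := fun e => ha0 (by rw [hk, e, zero_smul])
    have e3 : dT g x₀ d = dT g x₀ (k • τ) := by rw [map_smul, ← ha₀, ← hb₀, hk]
    have e4 := R.inj e3
    rw [e4, map_smul, _root_.smul_apply, smul_eq_mul] at hdτ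
    exact (mul_ne_zero hk0 (R.pos τ hτ hτ0).ne') hdτ
  have hlt : |chi b₀ a₀| < ‖a₀‖ := by
    have h3 := abs_chi_lt_one (unit_of_ne hb0) (unit_of_ne ha0) (R.C.dnY _ (ne0_of_unit _
      (unit_of_ne hb0))) (a := ‖b₀‖⁻¹ • b₀) (b := ‖a₀‖⁻¹ • a₀) (fun e => bad (‖a₀‖ * ‖b₀‖⁻¹) (by
        have e5 := congrArg (fun v => ‖a₀‖ • v) e
        simp only [smul_smul, mul_inv_cancel₀ hN₀.ne', one_smul] at e5
        exact e5)) (fun e => bad (-(‖a₀‖ * ‖b₀‖⁻¹)) (by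
        have e5 := congrArg (fun v => ‖a₀‖ • v) e
        simp only [smul_smul, mul_inv_cancel₀ hN₀.ne', one_smul, smul_neg] at e5
        rw [neg_smul]
        exact e5))
    rw [chi_unit hb0, map_smul, smul_eq_mul, abs_mul, abs_of_pos (inv_pos.2 hN₀),
      inv_mul_lt_iff₀ hN₀, mul_one] at h3
    exact h3
  have hle : |chi a₀ b₀| ≤ ‖b₀‖ := abs_chi_le a₀ b₀
  have e6 : ‖a₀‖ * ‖b₀‖ = chi a₀ b₀ * chi b₀ a₀ := by
    have e7 : ν * (‖a₀‖ * ‖b₀‖ - chi a₀ b₀ * chi b₀ a₀) = 0 := by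
      linear_combination ‖a₀‖ * e2 - chi b₀ a₀ * e1
    have := (mul_eq_zero.1 e7).resolve_left hν
    linarith
  have h8 : |chi a₀ b₀ * chi b₀ a₀| < ‖a₀‖ * ‖b₀‖ := by
    rw [abs_mul, mul_comm ‖a₀‖]
    calc |chi a₀ b₀| * |chi b₀ a₀| ≤ ‖b₀‖ * |chi b₀ a₀| :=
          mul_le_mul_of_nonneg_right hle (abs_nonneg _)
      _ < ‖b₀‖ * ‖a₀‖ := mul_lt_mul_of_pos_left hlt hN
  rw [← e6, abs_of_pos (by positivity)] at h8
  exact lt_irrefl _ h8

end Point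

end Vale.Agent.Lib.P084
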