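import Mathlib
import Vale.Agent.Lib.P084.Rig.Point
import Vale.Agent.Lib.P084.Rig.Forms

/-! Approximation of limit directions by vectors in moving subspaces. -/

namespace Vale.Agent.Lib.P084

open Set Metric Filter Topology Module

section Approx

variable {X : Type*} [NormedAddCommGroup X] [NormedSpace ℝ X] {l : Filter ℕ}

/-- The kernel of a functional. -/
noncomputable def Kr (φ : X →L[ℝ] ℝ) : Submodule ℝ X := LinearMap.ker (φ : X →ₗ[ℝ] ℝ)

lemma mem_Kr {φ : X →L[ℝ] ℝ} {v : X} : v ∈ Kr φ ↔ φ v = 0 := by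
  simp [Kr]

/-- Limits of vectors in moving subspaces. -/
def Appr (l : Filter ℕ) (K : ℕ → Submodule ℝ X) (v : X) : Prop :=
  ∃ w : ℕ → X, Tendsto w l (𝓝 v) ∧ ∀ᶠ n in l, w n ∈ K n

lemma appr_top (v : X) : Appr l (fun _ => ⊤) v :=
  ⟨fun _ => v, tendsto_const_nhds, .of_forall fun _ => Submodule.mem_top⟩

lemma Appr.mono {K K' : ℕ → Submodule ℝ X} {v : X} (h : Appr l K v) (hK : ∀ᶠ n in l, K n ≤ K' n) :
    Appr l K' v := by
  obtain ⟨w, h1, h2⟩ := h
  exact ⟨w, h1, by filter_upwards [h2, hK] with n hn hk using hk hn⟩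

/-- Removing one more constraint. -/
lemma Appr.kill {K : ℕ → Submodule ℝ X} {d e : X} (hd : Appr l K d) (he : Appr l K e)
    {ψ : ℕ → X →L[ℝ] ℝ} {ψ₀ : X →L[ℝ] ℝ} (hψ : Tendsto ψ l (𝓝 ψ₀)) (h1 : ψ₀ e ≠ 0) (h2 : ψ₀ d = 0) :
    Appr l (fun n => K n ⊓ Kr (ψ n)) d := by
  obtain ⟨w, hw, hwK⟩ := hd
  obtain ⟨z, hz, hzK⟩ := he
  have t1 := tendsto_clm_apply hψ hw
  rw [h2] at t1
  have t2 := tendsto_clm_apply hψ hz
  have t3 := (t1.div t2 h1).smul hz
  rw [zero_div, zero_smul] at t3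
  have t4 := hw.sub t3
  rw [sub_zero] at t4
  refine ⟨_, t4, ?_⟩
  filter_upwards [hwK, hzK, t2.eventually_ne h1] with n h3 h4 h5
  refine Submodule.mem_inf.2 ⟨(K n).sub_mem h3 ((K n).smul_mem _ h4), ?_⟩
  rw [mem_Kr]
  simp only [map_sub, map_smul, smul_eq_mul, Pi.div_apply]
  rw [div_mul_cancel₀ _ h5, sub_self]

/-- The first constraint: vectors tangent in the limit. -/
lemma appr_base {φ : ℕ → X →L[ℝ] ℝ} {φ₀ : X →L[ℝ] ℝ} (hφ : Tendsto φ l (𝓝 φ₀)) {e d : X}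
    (h1 : φ₀ e ≠ 0) (h2 : φ₀ d = 0) : Appr l (fun n => Kr (φ n)) d := by
  have := (appr_top (l := l) d).kill (appr_top e) hφ h1 h2
  refine this.mono (.of_forall fun n => ?_)
  simp

/-- Limits along an ultrafilter of bounded sequences. -/
lemma exists_ulim {W : Type*} [NormedAddCommGroup W] [NormedSpace ℝ W] [FiniteDimensional ℝ W]
    (l : Ultrafilter ℕ) {u : ℕ → W} {M : ℝ} (h : ∀ᶠ n in (l : Filter ℕ), ‖u n‖ ≤ M) :
    ∃ v, Tendsto u (l : Filter ℕ) (𝓝 v) := by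
  have hc : IsCompact (closedBall (0 : W) M) := isCompact_closedBall 0 M
  have hm : closedBall (0 : W) M ∈ (l.map u : Filter W) := by
    rw [Ultrafilter.coe_map, Filter.mem_map]
    filter_upwards [h] with n hn
    simpa using hn
  obtain ⟨v, -, hv⟩ := hc.ultrafilter_le_nhds' (l.map u) hm
  exact ⟨v, hv⟩

end Approx

end Vale.Agent.Lib.P084
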