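import Mathlib
import Vale.Agent.Lib.P084.Rig.Appr

/-! Limits of the rescaled differences of derivatives. -/

namespace Vale.Agent.Lib.P084

open Set Metric Filter Topology Module

section Glim

variable {X Y : Type*} [NormedAddCommGroup X] [NormedSpace ℝ X] [NormedAddCommGroup Y]
  [NormedSpace ℝ Y]

variable {g : X → Y} {h : Y → X}
variable {x₀ : X} {E : Set X} {l : Filter ℕ} {r δ : ℕ → ℝ} {a b c : ℕ → X} {α β γ : X}
variable {Q : X →L[ℝ] X →L[ℝ] ℝ} {Q' : Y →L[ℝ] Y →L[ℝ] ℝ}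

/-- Moving common kernels of two points. -/
noncomputable def K2 (a b : ℕ → X) (n : ℕ) : Submodule ℝ X := Kr (chi (a n)) ⊓ Kr (chi (b n))

/-- Moving common kernels of three points. -/
noncomputable def K3 (a b c : ℕ → X) (n : ℕ) : Submodule ℝ X :=
  Kr (chi (a n)) ⊓ Kr (chi (b n)) ⊓ Kr (chi (c n))

lemma mem_K2 {n : ℕ} {v : X} : v ∈ K2 a b n ↔ chi (a n) v = 0 ∧ chi (b n) v = 0 := by
  simp [K2, Submodule.mem_inf, mem_Kr]

lemma mem_K3 {n : ℕ} {v : X} :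
    v ∈ K3 a b c n ↔ chi (a n) v = 0 ∧ chi (b n) v = 0 ∧ chi (c n) v = 0 := by
  simp [K3, Submodule.mem_inf, mem_Kr, and_assoc]

/-- The limit of the rescaled differences. -/
def Gl (g : X → Y) (l : Filter ℕ) (δ : ℕ → ℝ) (a b : ℕ → X) (d₀ : X) (U : Y) : Prop :=
  ∃ d : ℕ → X, Tendsto d l (𝓝 d₀) ∧ (∀ᶠ n in l, d n ∈ K2 a b n) ∧
    Tendsto (fun n => (δ n)⁻¹ • (dT g (a n) (d n) - dT g (b n) (d n))) l (𝓝 U)

lemma diff_bound (S : Scl g x₀ E l r δ) (ha : BSeq x₀ E l r a α) (hb : BSeq x₀ E l r b β)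
    {d : ℕ → X} (hd : ∀ᶠ n in l, d n ∈ K2 a b n) :
    ∀ᶠ n in l, ‖(δ n)⁻¹ • (dT g (a n) (d n) - dT g (b n) (d n))‖ ≤ ‖d n‖ := by
  filter_upwards [hd, ha.mem, hb.mem] with n hn h1 h2
  obtain ⟨d1, d2⟩ := mem_K2.1 hn
  have h3 := S.bd n _ _ h1.1 h2.1 h1.2 h2.2 _ d1 d2
  have hp := S.dpos n
  rw [norm_smul, Real.norm_of_nonneg (inv_pos.2 hp).le, inv_mul_le_iff₀ hp]
  exact h3

lemma Gl.exists_of_appr [FiniteDimensional ℝ Y] (l : Ultrafilter ℕ)
    (S : Scl g x₀ E (l : Filter ℕ) r δ) (ha : BSeq x₀ E l r a α)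
    (hb : BSeq x₀ E l r b β) {d₀ : X} (hA : Appr l (K2 a b) d₀) : ∃ U, Gl g l δ a b d₀ U := by
  obtain ⟨d, hd, hk⟩ := hA
  have h1 := diff_bound S ha hb hk
  have h2 : ∀ᶠ n in (l : Filter ℕ), ‖d n‖ < ‖d₀‖ + 1 :=
    hd.norm.eventually_lt_const (by linarith)
  obtain ⟨U, hU⟩ := exists_ulim l (u := fun n => (δ n)⁻¹ • (dT g (a n) (d n) - dT g (b n) (d n)))
    (M := ‖d₀‖ + 1) (by
      filter_upwards [h1, h2] with n h3 h4
      exact h3.trans h4.le)
  exact ⟨U, d, hd, hk, hU⟩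

/-- Any other sequence of directions gives the same limit. -/
lemma Gl.transfer (S : Scl g x₀ E l r δ) (ha : BSeq x₀ E l r a α) (hb : BSeq x₀ E l r b β)
    {d₀ : X} {U : Y} (hU : Gl g l δ a b d₀ U) {d : ℕ → X} (hd : Tendsto d l (𝓝 d₀))
    (hk : ∀ᶠ n in l, d n ∈ K2 a b n) :
    Tendsto (fun n => (δ n)⁻¹ • (dT g (a n) (d n) - dT g (b n) (d n))) l (𝓝 U) := by
  obtain ⟨d₁, h1, h2, h3⟩ := hU
  have h4 : Tendsto (fun n => d n - d₁ n) l (𝓝 0) := by
    have := hd.sub h1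
    rwa [sub_self] at this
  have h5 : Tendsto (fun n => (δ n)⁻¹ • (dT g (a n) (d n - d₁ n) - dT g (b n) (d n - d₁ n))) l
      (𝓝 0) := by
    refine squeeze_zero_norm' ?_ (by simpa using h4.norm)
    have hk' : ∀ᶠ n in l, d n - d₁ n ∈ K2 a b n := by
      filter_upwards [hk, h2] with n h6 h7
      exact (K2 a b n).sub_mem h6 h7
    exact diff_bound S ha hb hk'
  have h6 := h3.add h5
  rw [add_zero] at h6
  refine h6.congr fun n => ?_
  rw [← smul_add]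
  congr 1
  simp only [map_sub]
  abel

lemma BSeq.chi_tendsto (S : Scl g x₀ E l r δ) (R : RPt g h x₀ Q Q') (ha : BSeq x₀ E l r a α) :
    Tendsto (fun n => chi (a n)) l (𝓝 (chi x₀)) :=
  (chi_continuousAt R.C.dnX R.x0).tendsto.comp (ha.tendsto S)

lemma RPt.chi_self (R : RPt g h x₀ Q Q') : chi x₀ x₀ = 1 := by
  rw [(R.C.dnX x₀ R.x0).chi_self, R.unit]

/-- Rescaled differences of the functionals. -/
lemma diff_chi_lim (S : Scl g x₀ E l r δ) (R : RPt g h x₀ Q Q') (ha : BSeq x₀ E l r a α)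
    (hb : BSeq x₀ E l r b β) :
    Tendsto (fun n => (r n)⁻¹ • (chi (a n) - chi (b n))) l (𝓝 (Q (α - β))) := by
  rw [map_sub]
  refine ((ha.chi_lim S R).sub (hb.chi_lim S R)).congr fun n => ?_
  ext v
  simp only [_root_.sub_apply, _root_.smul_apply, smul_eq_mul]
  ring

lemma appr_ker (S : Scl g x₀ E l r δ) (R : RPt g h x₀ Q Q') (hb : BSeq x₀ E l r b β) {w : X}
    (hw : chi x₀ w = 0) : Appr l (fun n => Kr (chi (b n))) w :=
  appr_base (hb.chi_tendsto S R) (e := x₀) (by rw [R.chi_self]; norm_num) hw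

/-- Directions tangent at the limit can be made tangent at two points. -/
lemma appr_pair [l.NeBot] (S : Scl g x₀ E l r δ) (R : RPt g h x₀ Q Q') (ha : BSeq x₀ E l r a α)
    (hb : BSeq x₀ E l r b β) {w : X} (hw : chi x₀ w = 0) (hQ : Q (α - β) w = 0) (hne : α - β ≠ 0) :
    Appr l (K2 a b) w := by
  have h1 : chi x₀ (α - β) = 0 := by rw [map_sub, ha.chi_base S R, hb.chi_base S R, sub_zero]
  have h2 := (appr_ker S R hb hw).kill (appr_ker S R hb h1) (diff_chi_lim S R ha hb)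
    (R.pos _ h1 hne).ne' hQ
  refine h2.mono (.of_forall fun n => ?_)
  intro v hv
  obtain ⟨h3, h4⟩ := Submodule.mem_inf.1 hv
  rw [mem_Kr] at h3 h4
  rw [mem_K2]
  refine ⟨?_, h3⟩
  rw [_root_.smul_apply, _root_.sub_apply, h3, sub_zero, smul_eq_mul] at h4
  exact (mul_eq_zero.1 h4).resolve_left (inv_pos.2 (S.rpos n)).ne'

/-- Directions tangent at the limit can be made tangent at three points. -/
lemma appr_triple [l.NeBot] (S : Scl g x₀ E l r δ) (R : RPt g h x₀ Q Q') (ha : BSeq x₀ E l r a α)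
    (hb : BSeq x₀ E l r b β) (hc : BSeq x₀ E l r c γ) {w : X} (hw : chi x₀ w = 0)
    (hQ : Q (α - β) w = 0) (hQ' : Q (γ - β) w = 0) (hI : Ind (α - β) (γ - β)) :
    Appr l (K3 a b c) w := by
  have hne : α - β ≠ 0 := hI.ne_left
  have h1 : chi x₀ (α - β) = 0 := by rw [map_sub, ha.chi_base S R, hb.chi_base S R, sub_zero]
  have h2 : chi x₀ (γ - β) = 0 := by rw [map_sub, hc.chi_base S R, hb.chi_base S R, sub_zero]
  obtain ⟨u, hu⟩ : ∃ u, u = α - β := ⟨_, rfl⟩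
  obtain ⟨v, hv⟩ : ∃ v, v = γ - β := ⟨_, rfl⟩
  rw [← hu] at h1 hQ hne hI
  rw [← hv] at h2 hQ' hI
  have hqu := R.pos u h1 hne
  obtain ⟨e, he⟩ : ∃ e, e = v - (Q u v / Q u u) • u := ⟨_, rfl⟩
  have he1 : chi x₀ e = 0 := by rw [he, map_sub, map_smul, h1, h2, smul_zero, sub_zero]
  have he2 : Q u e = 0 := by
    rw [he, map_sub, map_smul, smul_eq_mul, div_mul_cancel₀ _ hqu.ne', sub_self]
  have he0 : e ≠ 0 := by
    intro e0
    rw [he] at e0
    have := (hI (-(Q u v / Q u u)) 1 (by rw [← e0]; module)).2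
    exact one_ne_zero this
  have he3 : Q v e ≠ 0 := by
    have h3 : Q (v - (Q u v / Q u u) • u) e = Q v e - Q u v / Q u u * Q u e := by
      simp only [map_sub, map_smul, _root_.sub_apply, _root_.smul_apply, smul_eq_mul]
    rw [← he] at h3
    rw [he2, mul_zero, sub_zero] at h3
    rw [← h3]
    exact (R.pos e he1 he0).ne'
  have h4 := (appr_pair S R ha hb hw (by rw [← hu]; exact hQ) (by rw [← hu]; exact hne)).kill
    (appr_pair S R ha hb he1 (by rw [← hu]; exact he2) (by rw [← hu]; exact hne))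
    (by rw [hv]; exact diff_chi_lim S R hc hb) he3 hQ'
  refine h4.mono (.of_forall fun n => ?_)
  intro x hx
  obtain ⟨h5, h6⟩ := Submodule.mem_inf.1 hx
  obtain ⟨h7, h8⟩ := mem_K2.1 h5
  rw [mem_Kr] at h6
  rw [mem_K3]
  refine ⟨h7, h8, ?_⟩
  rw [_root_.smul_apply, _root_.sub_apply, h8, sub_zero, smul_eq_mul] at h6
  exact (mul_eq_zero.1 h6).resolve_left (inv_pos.2 (S.rpos n)).ne'

end Glim

end Vale.Agent.Lib.P084
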