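import Mathlib
import Vale.Agent.Lib.P084.Rig.Glim

/-! The algebra behind the vanishing of the limit differences. -/

namespace Vale.Agent.Lib.P084

open Set Metric Filter Topology Module

section Alg

variable {X Y : Type*} [NormedAddCommGroup X] [NormedSpace ℝ X] [NormedAddCommGroup Y]
  [NormedSpace ℝ Y]

variable {g : X → Y} {h : Y → X} {x₀ : X}
variable {Q : X →L[ℝ] X →L[ℝ] ℝ} {Q' : Y →L[ℝ] Y →L[ℝ] ℝ}

lemma finrank_ker2 [FiniteDimensional ℝ X] (φ₁ φ₂ : X →L[ℝ] ℝ) :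
    finrank ℝ X ≤ finrank ℝ ↥(Kr φ₁ ⊓ Kr φ₂) + 2 := by
  have h1 := LinearMap.finrank_range_add_finrank_ker ((φ₁ : X →ₗ[ℝ] ℝ).prod (φ₂ : X →ₗ[ℝ] ℝ))
  have h2 : finrank ℝ (LinearMap.range ((φ₁ : X →ₗ[ℝ] ℝ).prod (φ₂ : X →ₗ[ℝ] ℝ))) ≤ 2 := by
    refine (Submodule.finrank_le _).trans ?_
    simp
  have h3 : LinearMap.ker ((φ₁ : X →ₗ[ℝ] ℝ).prod (φ₂ : X →ₗ[ℝ] ℝ)) = Kr φ₁ ⊓ Kr φ₂ :=
    LinearMap.ker_prod _ _
  rw [h3] at h1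
  omega

lemma exists_kernel3 [FiniteDimensional ℝ X] (hdim : 4 ≤ finrank ℝ X) (φ₁ φ₂ φ₃ : X →L[ℝ] ℝ) :
    ∃ v : X, v ≠ 0 ∧ φ₁ v = 0 ∧ φ₂ v = 0 ∧ φ₃ v = 0 := by
  have h1 : finrank ℝ (ℝ × ℝ × ℝ) < finrank ℝ X := by
    simp
    omega
  have h2 := LinearMap.ker_ne_bot_of_finrank_lt
    (f := ((φ₁ : X →ₗ[ℝ] ℝ).prod ((φ₂ : X →ₗ[ℝ] ℝ).prod (φ₃ : X →ₗ[ℝ] ℝ)))) h1
  obtain ⟨v, hv, hv0⟩ := Submodule.exists_mem_ne_zero_of_ne_bot h2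
  refine ⟨v, hv0, ?_⟩
  simpa [LinearMap.mem_ker] using hv

/-- The hyperplane of the tangent space orthogonal to `d`, as a subspace. -/
noncomputable def WW (x₀ : X) (Q : X →L[ℝ] X →L[ℝ] ℝ) (d : X) : Submodule ℝ X :=
  Kr (chi x₀) ⊓ Kr (Q d)

lemma mem_WW {d w : X} : w ∈ WW x₀ Q d ↔ chi x₀ w = 0 ∧ Q d w = 0 := by
  simp [WW, Submodule.mem_inf, mem_Kr]

/-- The family of limit differences at small vectors vanishes. -/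
theorem G_zero_alg [FiniteDimensional ℝ X] [Nontrivial X] [FiniteDimensional ℝ Y]
    [StrictConvexSpace ℝ Y] (R : RPt g h x₀ Q Q') (hdim : 4 ≤ finrank ℝ X) {d : X}
    (hd : chi x₀ d = 0) (hd0 : d ≠ 0) {κ : ℝ} (hκ : 0 < κ) (G : X → Y)
    (hJ : ∀ u ∈ WW x₀ Q d, ‖u‖ < κ → u ≠ 0 → chi (g x₀) (G u) = 0)
    (hN : ∀ u ∈ WW x₀ Q d, ‖u‖ < κ → u ≠ 0 → chi (dT g x₀ d) (G u) = 0)
    (hC : ∀ u ∈ WW x₀ Q d, ‖u‖ < κ → u ≠ 0 → chi (dT g x₀ u) (G u) = 0)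
    (hrel : ∀ u ∈ WW x₀ Q d, ∀ w ∈ WW x₀ Q d, ‖u‖ < κ → ‖w‖ < κ → Ind u w →
      Q' (dT g x₀ w) (G u) = Q' (dT g x₀ u) (G w)) :
    ∀ u ∈ WW x₀ Q d, ‖u‖ < κ → u ≠ 0 → G u = 0 := by
  have hdimW : 2 ≤ finrank ℝ (WW x₀ Q d) := by
    have := finrank_ker2 (chi x₀) (Q d)
    unfold WW
    omega
  have hNt : Nontrivial (WW x₀ Q d) := Module.nontrivial_of_finrank_pos (R := ℝ) (by omega)
  let L : WW x₀ Q d → WW x₀ Q d →ₗ[ℝ] ℝ := fun u =>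
    { toFun := fun w => Q' (dT g x₀ (w : X)) (G u)
      map_add' := fun w w' => by simp
      map_smul' := fun c w => by simp }
  have hL0 : ∀ u w, L u w = Q' (dT g x₀ (w : X)) (G u) := fun _ _ => rfl
  obtain ⟨B, hBs, hB⟩ := sym_form hdimW hκ L (by
    intro u w hu hw hI
    rw [hL0, hL0]
    refine hrel u u.2 w w.2 hu hw fun s t e => hI s t (Subtype.ext ?_)
    simpa using e)
  let P : WW x₀ Q d →ₗ[ℝ] WW x₀ Q d →ₗ[ℝ] ℝ :=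
    LinearMap.mk₂ ℝ (fun u w => Q (u : X) (w : X)) (by intros; simp) (by intros; simp)
      (by intros; simp) (by intros; simp)
  have hP0 : ∀ u w, P u w = Q (u : X) (w : X) := fun _ _ => rfl
  have hPs : ∀ u w, P u w = P w u := fun u w => R.sym _ _
  have hPp : ∀ v, v ≠ 0 → 0 < P v v := by
    intro v hv
    refine R.pos _ (mem_WW.1 v.2).1 fun e => hv (Subtype.ext e)
  have hE : ∀ τ : WW x₀ Q d, τ ≠ 0 → ∀ ν : ℝ, (∀ v, B τ v = ν * P τ v) → ν = 0 := by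
    intro τ hτ ν hν
    have hτn : 0 < ‖τ‖ := norm_pos_iff.2 hτ
    obtain ⟨c, hc⟩ : ∃ c, c = κ / (2 * ‖τ‖) := ⟨_, rfl⟩
    have hcp : 0 < c := by
      rw [hc]
      positivity
    have hcn : ‖c • τ‖ < κ := by
      rw [norm_smul, Real.norm_of_nonneg hcp.le, hc]
      have e : κ / (2 * ‖τ‖) * ‖τ‖ = κ / 2 := by field_simp
      rw [e]
      linarith
    have hcτ : c • τ ≠ 0 := smul_ne_zero hcp.ne' hτ
    have hτ1 := mem_WW.1 (c • τ).2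
    have hcτ' : ((c • τ : WW x₀ Q d) : X) ≠ 0 := fun e => hcτ (Subtype.ext e)
    refine R.eig_zero hd hd0 hτ1.1 hcτ' hτ1.2 (hJ _ (c • τ).2 hcn hcτ') (hN _ (c • τ).2 hcn hcτ')
      (hC _ (c • τ).2 hcn hcτ') fun w hw1 hw2 => ?_
    have hw : w ∈ WW x₀ Q d := mem_WW.2 ⟨hw1, hw2⟩
    have h1 := hB (c • τ) hcn hcτ ⟨w, hw⟩
    rw [hL0] at h1
    refine h1.trans ?_
    rw [map_smul, LinearMap.smul_apply, hν, smul_eq_mul, hP0]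
    simp only [Submodule.coe_smul, map_smul, _root_.smul_apply, smul_eq_mul]
    ring
  have hB0 := form_zero_of_eig B P hBs hPs hPp hE
  intro u hu hun hu0
  refine R.orth_zero hd hd0 (hJ u hu hun hu0) (hN u hu hun hu0) fun w hw1 hw2 => ?_
  have hw : w ∈ WW x₀ Q d := mem_WW.2 ⟨hw1, hw2⟩
  have h1 := hB ⟨u, hu⟩ hun (fun e => hu0 (congrArg Subtype.val e)) ⟨w, hw⟩
  rw [hL0, hB0] at h1
  exact h1

end Alg

end Vale.Agent.Lib.P084
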