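import Mathlib
import Vale.Agent.Lib.P084.Rig.AeDiff

/-! At a density point, all small scales see the set in every direction. -/

namespace Vale.Agent.Lib.P084

open Set Metric Filter Topology MeasureTheory Module
open scoped NNReal ENNReal

section Scale

variable {X : Type*} [NormedAddCommGroup X] [NormedSpace ℝ X]

/-- Every direction at the point is approximated by points of the set, at all small scales. -/
def ScalePt (s : Set X) (z : X) : Prop :=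
  ∀ u : X, ∀ ε : ℝ, 0 < ε → ∃ r₀ > 0, ∀ t : ℝ, 0 < t → t < r₀ → ∃ v ∈ s, ‖v - (z + t • u)‖ < ε * t

variable [MeasurableSpace X] [BorelSpace X] [FiniteDimensional ℝ X] (μ : Measure X)
  [μ.IsAddHaarMeasure]

/-- A density point is a scale point. -/
lemma DensePt.scalePt [Nontrivial X] {s : Set X} {z : X} (hz : DensePt μ s z) : ScalePt s z := by
  intro u ε hε
  obtain ⟨R, hR⟩ : ∃ R, R = ‖u‖ + ε := ⟨_, rfl⟩
  have hRp : 0 < R := by
    rw [hR]
    positivity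
  obtain ⟨n, hn⟩ : ∃ n, n = finrank ℝ X := ⟨_, rfl⟩
  obtain ⟨κ, hκ⟩ : ∃ κ, κ = (ε / R) ^ n := ⟨_, rfl⟩
  have hκp : 0 < κ := by
    rw [hκ]
    positivity
  have hev := hz.lower μ (κ := 1 - κ / 2) (by linarith)
  obtain ⟨r₁, hr₁, hsub₁⟩ := (mem_nhdsGT_iff_exists_Ioo_subset' (zero_lt_one (α := ℝ))).1 hev
  have hr₁' : 0 < r₁ := hr₁
  refine ⟨r₁ / R, by positivity, fun t ht0 ht1 => ?_⟩
  by_contra hcon
  push Not at hcon
  obtain ⟨r, hr⟩ : ∃ r, r = t * R := ⟨_, rfl⟩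
  have hr0 : 0 < r := by
    rw [hr]
    positivity
  have hr2 : r < r₁ := by
    rw [hr]
    rwa [lt_div_iff₀ hRp] at ht1
  have hr1 := hsub₁ (show r ∈ Ioo 0 r₁ from ⟨hr0, hr2⟩)
  have hsub : ball (z + t • u) (ε * t) ⊆ closedBall z r := by
    intro w hw
    rw [mem_ball, dist_eq_norm] at hw
    rw [mem_closedBall, dist_eq_norm]
    have e : w - z = (w - (z + t • u)) + t • u := by abel
    rw [e]
    refine (norm_add_le _ _).trans ?_
    rw [norm_smul, Real.norm_of_nonneg ht0.le, hr, hR]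
    nlinarith
  have hdisj : Disjoint (s ∩ closedBall z r) (ball (z + t • u) (ε * t)) := by
    rw [Set.disjoint_left]
    rintro v ⟨hv, -⟩ hvb
    rw [mem_ball, dist_eq_norm] at hvb
    exact absurd hvb (not_lt.2 (hcon v hv))
  have hU := measure_union (μ := μ) hdisj measurableSet_ball
  have hle : μ (s ∩ closedBall z r) + μ (ball (z + t • u) (ε * t)) ≤ μ (closedBall z r) := by
    rw [← hU]
    exact measure_mono (union_subset inter_subset_right hsub)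
  have hB : μ (ball (z + t • u) (ε * t)) = ENNReal.ofReal κ * μ (closedBall z r) := by
    rw [Measure.addHaar_ball μ _ (by positivity), Measure.addHaar_closedBall μ _ hr0.le, ← mul_assoc,
      ← ENNReal.ofReal_mul (by positivity), ← hn, hκ, hr, ← mul_pow]
    congr 3
    field_simp
  have hm0 : μ (closedBall z r) ≠ 0 := (measure_closedBall_pos μ z hr0).ne'
  have hmt : μ (closedBall z r) ≠ ∞ := measure_closedBall_lt_top.ne
  have h1 : ENNReal.ofReal (1 + κ / 2) * μ (closedBall z r) ≤ 1 * μ (closedBall z r) := by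
    rw [one_mul]
    refine le_trans ?_ hle
    rw [hB]
    have e : ENNReal.ofReal (1 + κ / 2) = ENNReal.ofReal (1 - κ / 2) + ENNReal.ofReal κ := by
      have hk : κ ≤ 1 := by
        rw [hκ]
        refine pow_le_one₀ (by positivity) ?_
        rw [div_le_one hRp, hR]
        linarith [norm_nonneg u]
      rw [← ENNReal.ofReal_add (by linarith) hκp.le]
      congr 1
      ring
    rw [e, add_mul]
    gcongr
    exact hr1
  have h2 := (ENNReal.mul_le_mul_iff_left hm0 hmt).1 h1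
  rw [← ENNReal.ofReal_one, ENNReal.ofReal_le_ofReal_iff (by norm_num)] at h2
  linarith

/-- A non-null cone contains a cone all of whose points are direction points of the cone itself, and
which is non-null around one of its points, which is also a scale point. -/
lemma exists_selfdense' [Nontrivial X] {C : Set X} (hcone : ∀ z ∈ C, ∀ a : ℝ, 0 < a → a • z ∈ C)
    (hC : μ C ≠ 0) :
    ∃ C' ⊆ C, (∀ z ∈ C', ∀ a : ℝ, 0 < a → a • z ∈ C') ∧ (∀ z ∈ C', DirPt C' z) ∧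
      ∃ z₀ ∈ C', ScalePt C' z₀ ∧ ∀ ρ > 0, μ (C' ∩ closedBall z₀ ρ) ≠ 0 := by
  obtain ⟨S, hS⟩ : ∃ S, S = {z ∈ C | DensePt μ C z} := ⟨_, rfl⟩
  have hN := null_not_densePt μ C
  have hsplit : C ⊆ S ∪ {z ∈ C | ¬DensePt μ C z} := by
    intro z hz
    by_cases hd : DensePt μ C z
    · left
      rw [hS]
      exact ⟨hz, hd⟩
    · right
      exact ⟨hz, hd⟩
  have hSsub : S ⊆ C := by
    rw [hS]
    exact fun z hz => hz.1
  have hinter : ∀ z r, μ (S ∩ closedBall z r) = μ (C ∩ closedBall z r) := by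
    intro z r
    refine le_antisymm (measure_mono (inter_subset_inter_left _ hSsub)) ?_
    have h1 : C ∩ closedBall z r ⊆ (S ∩ closedBall z r) ∪ {z ∈ C | ¬DensePt μ C z} := by
      rintro w ⟨hw, hw2⟩
      rcases hsplit hw with h | h
      · exact Or.inl ⟨h, hw2⟩
      · exact Or.inr h
    refine (measure_mono h1).trans ((measure_union_le _ _).trans ?_)
    rw [hN, add_zero]
  have hdS : ∀ z ∈ S, DensePt μ S z := by
    intro z hz
    rw [hS] at hz
    have h1 := hz.2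
    unfold DensePt at h1 ⊢
    simpa only [hinter] using h1
  have hSne : S.Nonempty := by
    by_contra hne
    rw [not_nonempty_iff_eq_empty] at hne
    apply hC
    refine measure_mono_null hsplit (measure_union_null ?_ hN)
    rw [hne, measure_empty]
  obtain ⟨z₀, hz₀⟩ := hSne
  have hS' : S ⊆ {z | ∃ a : ℝ, 0 < a ∧ a • z ∈ S} := fun z hz =>
    ⟨1, one_pos, by rwa [one_smul]⟩
  refine ⟨{z | ∃ a : ℝ, 0 < a ∧ a • z ∈ S}, ?_, ?_, ?_, z₀, hS' hz₀, ?_, ?_⟩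
  · rintro z ⟨a, ha, hz⟩
    have := hcone _ (hSsub hz) a⁻¹ (inv_pos.2 ha)
    rwa [smul_smul, inv_mul_cancel₀ ha.ne', one_smul] at this
  · rintro z ⟨b, hb, hz⟩ a ha
    refine ⟨b / a, by positivity, ?_⟩
    rwa [smul_smul, div_mul_cancel₀ _ ha.ne']
  · rintro z ⟨a, ha, hz⟩
    have h1 := ((hdS _ hz).dirPt μ).mono hS'
    have h2 : ∀ w ∈ {z | ∃ a : ℝ, 0 < a ∧ a • z ∈ S}, ∀ b : ℝ, 0 < b →
        b • w ∈ {z | ∃ a : ℝ, 0 < a ∧ a • z ∈ S} := by
      rintro w ⟨c, hc, hw⟩ b hb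
      refine ⟨c / b, by positivity, ?_⟩
      rwa [smul_smul, div_mul_cancel₀ _ hb.ne']
    have h3 := h1.smul h2 (inv_pos.2 ha)
    rwa [smul_smul, inv_mul_cancel₀ ha.ne', one_smul] at h3
  · intro u ε hε
    obtain ⟨r₀, hr₀, h1⟩ := (hdS _ hz₀).scalePt μ u ε hε
    refine ⟨r₀, hr₀, fun t ht0 ht1 => ?_⟩
    obtain ⟨v, hv, hvd⟩ := h1 t ht0 ht1
    exact ⟨v, hS' hv, hvd⟩
  · intro ρ hρ
    have hev := ((hdS _ hz₀).lower μ (κ := 1 / 2) (by norm_num)).and (Ioo_mem_nhdsGT hρ)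
    obtain ⟨r, hr1, hr2⟩ := hev.exists
    have hm0 : μ (closedBall z₀ r) ≠ 0 := (measure_closedBall_pos μ z₀ hr2.1).ne'
    have h1 : 0 < ENNReal.ofReal (1 / 2) * μ (closedBall z₀ r) :=
      ENNReal.mul_pos (by simp) hm0
    intro h0
    have h2 : S ∩ closedBall z₀ r ⊆ {z | ∃ a : ℝ, 0 < a ∧ a • z ∈ S} ∩ closedBall z₀ ρ := by
      rintro w ⟨hw, hw2⟩
      refine ⟨⟨1, one_pos, by rwa [one_smul]⟩, closedBall_subset_closedBall hr2.2.le hw2⟩
    have h3 := measure_mono_null h2 h0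
    rw [h3] at hr1
    exact absurd (h1.trans_le hr1) (lt_irrefl _)

end Scale

section ScaleUnit

variable {X : Type*} [NormedAddCommGroup X] [NormedSpace ℝ X]

/-- Transfer of the scale property to the unit sphere. -/
lemma ScalePt.unit {C : Set X} (hcone : ∀ z ∈ C, ∀ a : ℝ, 0 < a → a • z ∈ C)
    (hC0 : ∀ z ∈ C, z ≠ 0) {z₀ : X} (hz₀ : z₀ ≠ 0) (hS : ScalePt C z₀)
    (hd : Dn (‖z₀‖⁻¹ • z₀)) {u : X} (hu : chi (‖z₀‖⁻¹ • z₀) u = 0) {ε : ℝ} (hε : 0 < ε) :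
    ∃ r₀ > 0, ∀ t : ℝ, 0 < t → t < r₀ → ∃ y ∈ C, ‖y‖ = 1 ∧
      ‖y - (‖z₀‖⁻¹ • z₀ + t • u)‖ ≤ ε * t := by
  obtain ⟨x, hx⟩ : ∃ x, x = ‖z₀‖⁻¹ • z₀ := ⟨_, rfl⟩
  rw [← hx] at hd hu ⊢
  have hxu : ‖x‖ = 1 := by
    rw [hx]
    exact unit_of_ne hz₀
  obtain ⟨N, hN⟩ : ∃ N, N = ‖z₀‖ := ⟨_, rfl⟩
  have hNp : 0 < N := by
    rw [hN]
    exact norm_pos_iff.2 hz₀
  have hzN : z₀ = N • x := by
    rw [hx, smul_smul, ← hN, mul_inv_cancel₀ hNp.ne', one_smul]
  obtain ⟨U, hU⟩ : ∃ U, U = ‖u‖ := ⟨_, rfl⟩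
  have hU0 : 0 ≤ U := by
    rw [hU]
    exact norm_nonneg _
  have hε₂ : 0 < ε / (2 * (U + 1)) := by positivity
  have h1 := hd.hasFDerivAt.isLittleO.def hε₂
  obtain ⟨δ, hδ, hball⟩ := Metric.eventually_nhds_iff.1 h1
  obtain ⟨r₁, hr₁, hS1⟩ := hS u (ε / 4) (by positivity)
  refine ⟨min (r₁ / N) (δ / (U + 1)), lt_min (by positivity) (by positivity), fun t ht0 ht1 => ?_⟩
  have ht2 : t * N < r₁ := by
    have := ht1.trans_le (min_le_left _ _)
    rwa [lt_div_iff₀ hNp] at this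
  have ht3 : t < δ / (U + 1) := ht1.trans_le (min_le_right _ _)
  obtain ⟨v₁, hv₁, hv₁d⟩ := hS1 (t * N) (by positivity) ht2
  obtain ⟨v, hv⟩ : ∃ v, v = N⁻¹ • v₁ := ⟨_, rfl⟩
  have hvC : v ∈ C := by
    rw [hv]
    exact hcone _ hv₁ _ (inv_pos.2 hNp)
  have hvd : ‖v - (x + t • u)‖ ≤ ε / 4 * t := by
    have e : v - (x + t • u) = N⁻¹ • (v₁ - (z₀ + (t * N) • u)) := by
      rw [hv, hzN, smul_sub, smul_add, smul_smul, smul_smul, inv_mul_cancel₀ hNp.ne', one_smul]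
      have e2 : N⁻¹ * (t * N) = t := by field_simp
      rw [e2]
    rw [e, norm_smul, Real.norm_of_nonneg (inv_pos.2 hNp).le, inv_mul_le_iff₀ hNp]
    have e3 : N * (ε / 4 * t) = ε / 4 * (t * N) := by ring
    rw [e3]
    exact hv₁d.le
  have htU : ‖t • u‖ = t * U := by rw [norm_smul, Real.norm_of_nonneg ht0.le, hU]
  have htδ : t * U < δ := by
    rw [lt_div_iff₀ (by positivity)] at ht3
    nlinarith
  have h3 := hball (y := x + t • u) (by
    rw [dist_eq_norm, add_sub_cancel_left, htU]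
    exact htδ)
  have e5 : (fderiv ℝ (fun w : X => ‖w‖) x) (t • u) = 0 := by
    change chi x (t • u) = 0
    rw [map_smul, hu, smul_zero]
  rw [add_sub_cancel_left, Real.norm_eq_abs, e5, sub_zero, hxu, htU] at h3
  have hv0 := hC0 v hvC
  have hvp : 0 < ‖v‖ := norm_pos_iff.2 hv0
  have h4 : |‖v‖ - ‖x + t • u‖| ≤ ‖v - (x + t • u)‖ := abs_norm_sub_norm_le _ _
  have h5 : |‖v‖ - 1| ≤ ε / 4 * t + ε / (2 * (U + 1)) * (t * U) := by
    have e : ‖v‖ - 1 = (‖v‖ - ‖x + t • u‖) + (‖x + t • u‖ - 1) := by ring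
    rw [e]
    refine (abs_add_le _ _).trans ?_
    linarith
  have h6 : ‖‖v‖⁻¹ • v - v‖ = |‖v‖ - 1| := by
    have e : ‖v‖⁻¹ • v - v = (‖v‖⁻¹ - 1) • v := by
      rw [sub_smul, one_smul]
    rw [e, norm_smul, Real.norm_eq_abs]
    have e2 : |‖v‖⁻¹ - 1| * ‖v‖ = |(‖v‖⁻¹ - 1) * ‖v‖| := by
      rw [abs_mul, abs_of_pos hvp]
    rw [e2, sub_mul, inv_mul_cancel₀ hvp.ne', one_mul, abs_sub_comm]
  refine ⟨‖v‖⁻¹ • v, hcone v hvC _ (inv_pos.2 hvp), unit_of_ne hv0, ?_⟩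
  have e3 : ‖v‖⁻¹ • v - (x + t • u) = (‖v‖⁻¹ • v - v) + (v - (x + t • u)) := by abel
  rw [e3]
  refine (norm_add_le _ _).trans ?_
  rw [h6]
  have h7 : ε / (2 * (U + 1)) * (t * U) ≤ ε / 2 * t := by
    have e4 : ε / (2 * (U + 1)) * (t * U) = ε / 2 * t * (U / (U + 1)) := by
      field_simp
    rw [e4]
    have h8 : U / (U + 1) ≤ 1 := by
      rw [div_le_one (by positivity)]
      linarith
    exact mul_le_of_le_one_right (by positivity) h8
  linarith

end ScaleUnit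

end Vale.Agent.Lib.P084
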