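import Mathlib
import Vale.Agent.Lib.P084.Rig.Alg

/-! The limit differences vanish. -/

namespace Vale.Agent.Lib.P084

open Set Metric Filter Topology Module

section Vanish

variable {X Y : Type*} [NormedAddCommGroup X] [NormedSpace ℝ X] [NormedAddCommGroup Y]
  [NormedSpace ℝ Y]

variable {g : X → Y} {h : Y → X}
variable {x₀ : X} {E : Set X} {l : Filter ℕ} {r δ : ℕ → ℝ} {a b c : ℕ → X} {α β γ : X}
variable {Q : X →L[ℝ] X →L[ℝ] ℝ} {Q' : Y →L[ℝ] Y →L[ℝ] ℝ}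

lemma Gl.tan_J [FiniteDimensional ℝ X] [Nontrivial X] [l.NeBot] (S : Scl g x₀ E l r δ)
    (R : RPt g h x₀ Q Q') (ha : BSeq x₀ E l r a α) (hb : BSeq x₀ E l r b β) {d₀ : X} {U : Y}
    (hU : Gl g l δ a b d₀ U) : chi (g x₀) U = 0 := by
  obtain ⟨d, -, h2, h3⟩ := hU
  exact Vale.Agent.Lib.P084.tan_J S R ha hb (h2.mono fun n hn => mem_K2.1 hn) h3

lemma Gl.tan_N [l.NeBot] (S : Scl g x₀ E l r δ)
    (R : RPt g h x₀ Q Q') (ha : BSeq x₀ E l r a α) (hb : BSeq x₀ E l r b β) {d₀ : X} {U : Y}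
    (hU : Gl g l δ a b d₀ U) (hd₀ : d₀ ≠ 0) : chi (dT g x₀ d₀) U = 0 := by
  obtain ⟨d, h1, h2, h3⟩ := hU
  exact tan_norm S R ha hb h1 (fun e => hd₀ (R.inj (by rw [e, map_zero])))
    (h2.mono fun n hn => mem_K2.1 hn) h3

lemma Gl.tan_C [l.NeBot] (S : Scl g x₀ E l r δ)
    (R : RPt g h x₀ Q Q') (ha : BSeq x₀ E l r a α) (hb : BSeq x₀ E l r b β) {d₀ : X} {U : Y}
    (hU : Gl g l δ a b d₀ U) (hne : α - β ≠ 0) : chi (dT g x₀ (α - β)) U = 0 := by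
  obtain ⟨d, -, h2, h3⟩ := hU
  exact tan_chord S R ha hb (h2.mono fun n hn => mem_K2.1 hn) h3
    (fun e => hne (R.inj (by rw [e, map_zero])))

/-- The three point relation for limits along a common base. -/
lemma Gl.rel [FiniteDimensional ℝ X] [Nontrivial X] [l.NeBot] (S : Scl g x₀ E l r δ)
    (R : RPt g h x₀ Q Q') (ha : BSeq x₀ E l r a α) (hb : BSeq x₀ E l r b β)
    (hc : BSeq x₀ E l r c γ) {d₀ : X} {U V : Y} (hU : Gl g l δ a b d₀ U)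
    (hV : Gl g l δ c b d₀ V) (hd₀ : chi x₀ d₀ = 0)
    (hQ : Q d₀ (α - β) = 0) (hQ' : Q d₀ (γ - β) = 0) (hI : Ind (α - β) (γ - β)) :
    Q' (dT g x₀ (γ - β)) U = Q' (dT g x₀ (α - β)) V := by
  obtain ⟨d, hd, hk⟩ := appr_triple S R ha hb hc hd₀ (by rw [R.sym]; exact hQ)
    (by rw [R.sym]; exact hQ') hI
  have h1 := hU.transfer S ha hb hd (hk.mono fun n hn => by
    obtain ⟨k1, k2, k3⟩ := mem_K3.1 hn
    exact mem_K2.2 ⟨k1, k2⟩)
  have h2 := hV.transfer S hc hb hd (hk.mono fun n hn => by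
    obtain ⟨k1, k2, k3⟩ := mem_K3.1 hn
    exact mem_K2.2 ⟨k3, k2⟩)
  exact three_point S R ha hb hc (hk.mono fun n hn => mem_K3.1 hn) h1 h2

/-- **Vanishing of the limit differences.** -/
theorem rig_vanish [FiniteDimensional ℝ X] [Nontrivial X] [FiniteDimensional ℝ Y]
    [StrictConvexSpace ℝ Y] (l : Ultrafilter ℕ) (S : Scl g x₀ E (l : Filter ℕ) r δ)
    (R : RPt g h x₀ Q Q') (hdim : 4 ≤ finrank ℝ X)
    (hB : ∀ ξ, chi x₀ ξ = 0 → ‖ξ‖ < 1 → ∃ a, BSeq x₀ E l r a ξ)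
    {d₀ : X} (hd₀ : chi x₀ d₀ = 0) (hd₀0 : d₀ ≠ 0) {ξ₀ : X} (hb : BSeq x₀ E l r b ξ₀)
    (hξ : ‖ξ₀‖ < 1) (ha : BSeq x₀ E l r a α) {U : Y} (hU : Gl g l δ a b d₀ U)
    (hα1 : Q d₀ (α - ξ₀) = 0) (hα2 : α - ξ₀ ≠ 0) : U = 0 := by
  have hξ0 : chi x₀ ξ₀ = 0 := hb.chi_base S R
  have hα0 : chi x₀ (α - ξ₀) = 0 := by rw [map_sub, ha.chi_base S R, hξ0, sub_zero]
  obtain ⟨κ, hκ⟩ : ∃ κ, κ = 1 - ‖ξ₀‖ := ⟨_, rfl⟩
  have hκp : 0 < κ := by
    rw [hκ]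
    linarith
  have hsmall : ∀ u : X, ‖u‖ < κ → ‖ξ₀ + u‖ < 1 := fun u hu => by
    refine (norm_add_le _ _).trans_lt ?_
    rw [hκ] at hu
    linarith
  have hex : ∀ u : X, ∃ p : (ℕ → X) × Y, u ∈ WW x₀ Q d₀ → ‖u‖ < κ → u ≠ 0 →
      BSeq x₀ E l r p.1 (ξ₀ + u) ∧ Gl g l δ p.1 b d₀ p.2 := by
    intro u
    by_cases hu : u ∈ WW x₀ Q d₀ ∧ ‖u‖ < κ ∧ u ≠ 0
    · obtain ⟨hu1, hu2, hu3⟩ := hu
      obtain ⟨hu4, hu5⟩ := mem_WW.1 hu1
      obtain ⟨z, hz⟩ := hB (ξ₀ + u) (by rw [map_add, hξ0, hu4, add_zero]) (hsmall u hu2)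
      obtain ⟨V, hV⟩ := Gl.exists_of_appr l S hz hb (d₀ := d₀) (appr_pair S R hz hb hd₀
        (by rw [add_sub_cancel_left, R.sym]; exact hu5) (by rwa [add_sub_cancel_left]))
      exact ⟨(z, V), fun _ _ _ => ⟨hz, hV⟩⟩
    · exact ⟨(fun _ => 0, 0), fun h1 h2 h3 => absurd ⟨h1, h2, h3⟩ hu⟩
  choose p hp using hex
  have hGz : ∀ u ∈ WW x₀ Q d₀, ‖u‖ < κ → u ≠ 0 → (p u).2 = 0 := by
    refine G_zero_alg R hdim hd₀ hd₀0 hκp (fun u => (p u).2) ?_ ?_ ?_ ?_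
    · intro u h1 h2 h3
      obtain ⟨h4, h5⟩ := hp u h1 h2 h3
      exact h5.tan_J S R h4 hb
    · intro u h1 h2 h3
      obtain ⟨h4, h5⟩ := hp u h1 h2 h3
      exact h5.tan_N S R h4 hb hd₀0
    · intro u h1 h2 h3
      obtain ⟨h4, h5⟩ := hp u h1 h2 h3
      have h6 := h5.tan_C S R h4 hb (by rwa [add_sub_cancel_left])
      rwa [add_sub_cancel_left] at h6
    · intro u h1 w h2 h3 h4 hI
      have hw0 : w ≠ 0 := hI.symm.ne_left
      obtain ⟨h5, h6⟩ := hp u h1 h3 hI.ne_left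
      obtain ⟨h7, h8⟩ := hp w h2 h4 hw0
      have h9 := h6.rel S R h5 hb h7 h8 hd₀ (by rw [add_sub_cancel_left]; exact (mem_WW.1 h1).2)
        (by rw [add_sub_cancel_left]; exact (mem_WW.1 h2).2)
        (by rw [add_sub_cancel_left, add_sub_cancel_left]; exact hI)
      rwa [add_sub_cancel_left, add_sub_cancel_left] at h9
  obtain ⟨ua, hua⟩ : ∃ ua, ua = α - ξ₀ := ⟨_, rfl⟩
  rw [← hua] at hα0 hα1 hα2
  have hCl1 : ∀ w, chi x₀ w = 0 → Q d₀ w = 0 → Ind ua w → Q' (dT g x₀ w) U = 0 := by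
    intro w hw1 hw2 hI
    have hwn := hI.symm.ne_left
    obtain ⟨c, hc⟩ : ∃ c, c = κ / (2 * (‖w‖ + 1)) := ⟨_, rfl⟩
    have hcp : 0 < c := by
      rw [hc]
      positivity
    have hcn : ‖c • w‖ < κ := by
      rw [norm_smul, Real.norm_of_nonneg hcp.le, hc, div_mul_eq_mul_div, div_lt_iff₀ (by positivity)]
      nlinarith [norm_nonneg w]
    have hcw : c • w ≠ 0 := smul_ne_zero hcp.ne' hwn
    have hmem : c • w ∈ WW x₀ Q d₀ := (WW x₀ Q d₀).smul_mem c (mem_WW.2 ⟨hw1, hw2⟩)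
    obtain ⟨h7, h8⟩ := hp (c • w) hmem hcn hcw
    have hI' : Ind (α - ξ₀) (ξ₀ + c • w - ξ₀) := by
      rw [add_sub_cancel_left, ← hua]
      exact (hI.symm.smul_left hcp.ne').symm
    have h9 := hU.rel S R ha hb h7 h8 hd₀ (by rw [← hua]; exact hα1)
      (by rw [add_sub_cancel_left]; exact (mem_WW.1 hmem).2) hI'
    rw [add_sub_cancel_left, hGz _ hmem hcn hcw, map_zero, map_smul, map_smul, _root_.smul_apply,
      smul_eq_mul] at h9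
    exact (mul_eq_zero.1 h9).resolve_left hcp.ne'
  obtain ⟨w₀, hw₀0, hw₀1, hw₀2, hw₀3⟩ := exists_kernel3 hdim (chi x₀) (Q d₀) (Q ua)
  have hI₀ : Ind ua w₀ := by
    intro s t e
    have e1 := congrArg (Q ua) e
    rw [map_add, map_smul, map_smul, hw₀3, smul_zero, add_zero, map_zero, smul_eq_mul] at e1
    have hs := (mul_eq_zero.1 e1).resolve_right (R.pos ua hα0 hα2).ne'
    refine ⟨hs, ?_⟩
    rw [hs, zero_smul, zero_add, smul_eq_zero] at e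
    exact e.resolve_right hw₀0
  have hCl3 : Q' (dT g x₀ ua) U = 0 := by
    have h1 := hCl1 (ua + w₀) (by rw [map_add, hα0, hw₀1, add_zero])
      (by rw [map_add, hα1, hw₀2, add_zero]) hI₀.add_right
    have h2 := hCl1 w₀ hw₀1 hw₀2 hI₀
    rw [map_add, map_add, _root_.add_apply, h2, add_zero] at h1
    exact h1
  refine R.orth_zero hd₀ hd₀0 (hU.tan_J S R ha hb) (hU.tan_N S R ha hb hd₀0) fun w hw1 hw2 => ?_
  by_cases hI : Ind ua w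
  · exact hCl1 w hw1 hw2 hI
  · obtain ⟨c, rfl⟩ := not_ind hα2 (fun h => hI h.symm)
    rw [map_smul, map_smul, _root_.smul_apply, hCl3, smul_zero]

end Vanish

end Vale.Agent.Lib.P084
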