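import Mathlib
import Vale.Agent.Lib.P084.Rig.Vanish

/-! The contradiction from a nonzero limit difference. -/

namespace Vale.Agent.Lib.P084

open Set Metric Filter Topology Module

section MainL

variable {X Y : Type*} [NormedAddCommGroup X] [NormedSpace ℝ X] [NormedAddCommGroup Y]
  [NormedSpace ℝ Y]

variable {g : X → Y} {h : Y → X}
variable {x₀ : X} {E : Set X} {l : Filter ℕ} {r δ : ℕ → ℝ} {a b c x y : ℕ → X} {α β γ ζ η : X}
variable {Q : X →L[ℝ] X →L[ℝ] ℝ} {Q' : Y →L[ℝ] Y →L[ℝ] ℝ}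

/-- Choice of the base direction, avoiding finitely many bad values. -/
lemma choose_v (R : RPt g h x₀ Q Q') {d₀ p w₀ η z : X} (hw₀ : w₀ ≠ 0) (hw1 : chi x₀ w₀ = 0)
    (hw2 : Q d₀ w₀ = 0) (hp1 : chi x₀ p = 0) (hp2 : Q d₀ p = 0) (hp3 : ‖η + p‖ < 1) :
    ∃ v, chi x₀ v = 0 ∧ Q d₀ v = 0 ∧ ‖η + v‖ < 1 ∧ Q v w₀ ≠ 0 ∧ v ≠ z := by
  obtain ⟨ε, hε⟩ : ∃ ε, ε = (1 - ‖η + p‖) / (2 * (‖w₀‖ + 1)) := ⟨_, rfl⟩
  have hεp : 0 < ε := by
    rw [hε]
    have : 0 < 1 - ‖η + p‖ := by linarith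
    positivity
  have hsmall : ∀ τ : ℝ, 0 ≤ τ → τ ≤ ε → ‖η + (p + τ • w₀)‖ < 1 := by
    intro τ h0 h1
    have e : η + (p + τ • w₀) = (η + p) + τ • w₀ := by abel
    rw [e]
    refine (norm_add_le _ _).trans_lt ?_
    rw [norm_smul, Real.norm_of_nonneg h0]
    have h2 : τ * ‖w₀‖ ≤ ε * (‖w₀‖ + 1) := by nlinarith [norm_nonneg w₀]
    have h3 : ε * (‖w₀‖ + 1) = (1 - ‖η + p‖) / 2 := by
      rw [hε]
      field_simp
    linarith
  have hq := R.pos w₀ hw1 hw₀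
  have key : ∃ τ : ℝ, 0 ≤ τ ∧ τ ≤ ε ∧ Q (p + τ • w₀) w₀ ≠ 0 ∧ p + τ • w₀ ≠ z := by
    by_contra hc
    push Not at hc
    have h1 := hc ε hεp.le le_rfl
    have h2 := hc (ε / 2) (by positivity) (by linarith)
    have h3 := hc (ε / 3) (by positivity) (by linarith)
    have b1 : ∀ τ τ' : ℝ, Q (p + τ • w₀) w₀ = 0 → Q (p + τ' • w₀) w₀ = 0 → τ = τ' := by
      intro τ τ' e1 e2
      simp only [map_add, map_smul, _root_.add_apply, _root_.smul_apply, smul_eq_mul] at e1 e2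
      have e3 : (τ - τ') * Q w₀ w₀ = 0 := by linarith
      have := (mul_eq_zero.1 e3).resolve_right hq.ne'
      linarith
    have b2 : ∀ τ τ' : ℝ, p + τ • w₀ = z → p + τ' • w₀ = z → τ = τ' := by
      intro τ τ' e1 e2
      have e3 : (τ - τ') • w₀ = 0 := by
        have : (τ - τ') • w₀ = (p + τ • w₀) - (p + τ' • w₀) := by module
        rw [this, e1, e2, sub_self]
      have := (smul_eq_zero.1 e3).resolve_right hw₀
      linarith
    have n12 : ε ≠ ε / 2 := by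
      intro e
      linarith
    have n13 : ε ≠ ε / 3 := by
      intro e
      linarith
    have n23 : ε / 2 ≠ ε / 3 := by
      intro e
      linarith
    by_cases c1 : Q (p + ε • w₀) w₀ = 0
    · by_cases c2 : Q (p + (ε / 2) • w₀) w₀ = 0
      · exact n12 (b1 _ _ c1 c2)
      · by_cases c3 : Q (p + (ε / 3) • w₀) w₀ = 0
        · exact n13 (b1 _ _ c1 c3)
        · exact n23 (b2 _ _ (h2 c2) (h3 c3))
    · by_cases c2 : Q (p + (ε / 2) • w₀) w₀ = 0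
      · by_cases c3 : Q (p + (ε / 3) • w₀) w₀ = 0
        · exact n23 (b1 _ _ c2 c3)
        · exact n13 (b2 _ _ (h1 c1) (h3 c3))
      · exact n12 (b2 _ _ (h1 c1) (h2 c2))
  obtain ⟨τ, h0, h1, h2, h3⟩ := key
  refine ⟨p + τ • w₀, ?_, ?_, hsmall τ h0 h1, h2, h3⟩
  · rw [map_add, map_smul, hp1, hw1, smul_zero, add_zero]
  · rw [map_add, map_smul, hp2, hw2, smul_zero, add_zero]

/-- The normalized differences of functionals. -/
noncomputable def ZZ (x y : ℕ → X) (n : ℕ) : X →L[ℝ] ℝ :=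
  ‖chi (x n) - chi (y n)‖⁻¹ • (chi (x n) - chi (y n))

lemma ZZ_ker {n : ℕ} {v : X} (h1 : chi (y n) v = 0) (h2 : ZZ x y n v = 0) : chi (x n) v = 0 := by
  by_cases hc : chi (x n) - chi (y n) = 0
  · rw [sub_eq_zero.1 hc, h1]
  · have hn : ‖chi (x n) - chi (y n)‖⁻¹ ≠ 0 := inv_ne_zero (norm_ne_zero_iff.2 hc)
    unfold ZZ at h2
    rw [_root_.smul_apply, _root_.sub_apply, h1, sub_zero, smul_eq_mul] at h2
    exact (mul_eq_zero.1 h2).resolve_left hn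

/-- **A nonzero limit difference is impossible.** -/
theorem rig_main [FiniteDimensional ℝ X] [Nontrivial X] [FiniteDimensional ℝ Y]
    [StrictConvexSpace ℝ Y] (l : Ultrafilter ℕ) (S : Scl g x₀ E (l : Filter ℕ) r δ)
    (R : RPt g h x₀ Q Q') (hdim : 4 ≤ finrank ℝ X)
    (hB : ∀ ξ, chi x₀ ξ = 0 → ‖ξ‖ < 1 → ∃ a, BSeq x₀ E l r a ξ)
    (hx : BSeq x₀ E l r x ζ) (hy : BSeq x₀ E l r y η) {d₀ : X} {U : Y}
    (hU : Gl g l δ x y d₀ U) (hU0 : U ≠ 0) {Zl : X →L[ℝ] ℝ}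
    (hZ : Tendsto (ZZ x y) l (𝓝 Zl)) (hZ0 : Zl ≠ 0) (hZx : Zl x₀ = 0)
    (hQz : Q d₀ (ζ - η) = 0) {p : X} (hp1 : chi x₀ p = 0) (hp2 : Q d₀ p = 0)
    (hp3 : ‖η + p‖ < 1) : False := by
  obtain ⟨d, hd, hk, hD⟩ := id hU
  have hd₀ : chi x₀ d₀ = 0 := by
    have h1 := tendsto_clm_apply (hy.chi_tendsto S R) hd
    refine tendsto_nhds_unique h1 (tendsto_const_nhds.congr' ?_)
    filter_upwards [hk] with n hn
    exact (mem_K2.1 hn).2.symm
  have hd₀0 : d₀ ≠ 0 := by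
    intro e
    rw [e] at hd
    refine hU0 (tendsto_nhds_unique hD (squeeze_zero_norm' (diff_bound S hx hy hk) ?_))
    simpa using hd.norm
  obtain ⟨w₀, hw0, hw1, hw2, hw3⟩ := exists_kernel3 hdim (chi x₀) (Q d₀) Zl
  obtain ⟨v, hv1, hv2, hv3, hv4, hv5⟩ := choose_v (z := ζ - η) R hw0 hw1 hw2 hp1 hp2 hp3
  have hη : chi x₀ η = 0 := hy.chi_base S R
  obtain ⟨b, hb⟩ := hB (η + v) (by rw [map_add, hη, hv1, add_zero]) hv3
  obtain ⟨e', he'⟩ : ∃ e', Zl e' ≠ 0 := by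
    by_contra hc
    push Not at hc
    exact hZ0 (ContinuousLinearMap.ext hc)
  obtain ⟨e, he1, he2⟩ : ∃ e, chi x₀ e = 0 ∧ Zl e ≠ 0 := by
    refine ⟨e' - chi x₀ e' • x₀, ?_, ?_⟩
    · rw [map_sub, map_smul, R.chi_self, smul_eq_mul, mul_one, sub_self]
    · rwa [map_sub, map_smul, hZx, smul_zero, sub_zero]
  have A3 : Appr l (K2 x y) w₀ := by
    have h1 := (appr_ker S R hy hw1).kill (appr_ker S R hy he1) hZ he2 hw3
    refine h1.mono (.of_forall fun n => ?_)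
    intro u hu
    obtain ⟨h2, h3⟩ := Submodule.mem_inf.1 hu
    rw [mem_Kr] at h2 h3
    exact mem_K2.2 ⟨ZZ_ker h2 h3, h2⟩
  have hψ : Tendsto (fun n => (r n)⁻¹ • (chi (b n) - chi (y n))) l (𝓝 (Q v)) := by
    have := diff_chi_lim S R hb hy
    rwa [add_sub_cancel_left] at this
  obtain ⟨ds, hds, hdk⟩ := Appr.kill ⟨d, hd, hk⟩ A3 hψ hv4 (by rw [R.sym]; exact hv2)
  have hdsk : ∀ᶠ n in (l : Filter ℕ), ds n ∈ K2 x y n ∧ chi (b n) (ds n) = 0 := by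
    filter_upwards [hdk] with n hn
    obtain ⟨h2, h3⟩ := Submodule.mem_inf.1 hn
    rw [mem_Kr] at h3
    obtain ⟨h4, h5⟩ := mem_K2.1 h2
    refine ⟨h2, ?_⟩
    rw [_root_.smul_apply, _root_.sub_apply, h5, sub_zero, smul_eq_mul] at h3
    exact (mul_eq_zero.1 h3).resolve_left (inv_pos.2 (S.rpos n)).ne'
  have hkx : ∀ᶠ n in (l : Filter ℕ), ds n ∈ K2 x b n := hdsk.mono fun n hn =>
    mem_K2.2 ⟨(mem_K2.1 hn.1).1, hn.2⟩
  have hky : ∀ᶠ n in (l : Filter ℕ), ds n ∈ K2 y b n := hdsk.mono fun n hn =>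
    mem_K2.2 ⟨(mem_K2.1 hn.1).2, hn.2⟩
  obtain ⟨Ux, hUx⟩ := Gl.exists_of_appr l S hx hb (d₀ := d₀) ⟨ds, hds, hkx⟩
  obtain ⟨Uy, hUy⟩ := Gl.exists_of_appr l S hy hb (d₀ := d₀) ⟨ds, hds, hky⟩
  have hv0 : v ≠ 0 := by
    rintro rfl
    apply hv4
    rw [map_zero, _root_.zero_apply]
  have hUy0 : Uy = 0 := rig_vanish l S R hdim hB hd₀ hd₀0 hb hv3 hy hUy
    (by
      have e : η - (η + v) = -v := by abel
      rw [e, map_neg, hv2, neg_zero])
    (by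
      have e : η - (η + v) = -v := by abel
      rw [e]
      exact neg_ne_zero.2 hv0)
  have hUx0 : Ux = 0 := rig_vanish l S R hdim hB hd₀ hd₀0 hb hv3 hx hUx
    (by
      have e : ζ - (η + v) = (ζ - η) - v := by abel
      rw [e, map_sub, hQz, hv2, sub_zero])
    (by
      have e : ζ - (η + v) = (ζ - η) - v := by abel
      rw [e]
      intro e2
      exact hv5 (sub_eq_zero.1 e2).symm)
  have h1 := hUx.transfer S hx hb hds hkx
  have h2 := hUy.transfer S hy hb hds hky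
  have h3 := hU.transfer S hx hy hds (hdsk.mono fun n hn => hn.1)
  have h4 := h1.sub h2
  rw [hUx0, hUy0, sub_zero] at h4
  refine hU0 (tendsto_nhds_unique h3 (h4.congr fun n => ?_))
  rw [← smul_sub]
  congr 1
  abel

end MainL

end Vale.Agent.Lib.P084
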