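import Mathlib
import Vale.Agent.Lib.P084.Rig.MainL

/-! Preparations for the rigidity theorem. -/

namespace Vale.Agent.Lib.P084

open Set Metric Filter Topology Module

section Top1

variable {X Y : Type*} [NormedAddCommGroup X] [NormedSpace ℝ X] [NormedAddCommGroup Y]
  [NormedSpace ℝ Y]

variable {g : X → Y} {h : Y → X}
variable {x₀ : X} {E : Set X} {l : Filter ℕ} {r δ : ℕ → ℝ} {a b c x y : ℕ → X} {α β γ ζ η : X}
variable {Q : X →L[ℝ] X →L[ℝ] ℝ} {Q' : Y →L[ℝ] Y →L[ℝ] ℝ}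

/-- Blow up sequences exist at all interior tangent positions. -/
lemma exists_bseq (hr : ∀ n, 0 < r n) (hr0 : Tendsto r l (𝓝 0)) (hl : l ≤ atTop)
    (hS : ∀ ξ, chi x₀ ξ = 0 → ∀ ε > 0, ∃ r₀ > 0, ∀ ρ, 0 < ρ → ρ < r₀ →
      ∃ x ∈ E, ‖x - (x₀ + ρ • ξ)‖ ≤ ε * ρ) {ξ : X} (hξ : chi x₀ ξ = 0) (hξ1 : ‖ξ‖ < 1) :
    ∃ a, BSeq x₀ E l r a ξ := by
  have hne : E.Nonempty := by
    obtain ⟨r₀, hr₀, h1⟩ := hS ξ hξ 1 one_pos
    obtain ⟨v, hv, -⟩ := h1 (r₀ / 2) (by positivity) (by linarith)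
    exact ⟨v, hv⟩
  have hq : ∀ n : ℕ, ∃ z ∈ E, dist (x₀ + r n • ξ) z <
      infDist (x₀ + r n • ξ) E + r n / ((n : ℝ) + 1) := by
    intro n
    have h1 : 0 < r n / ((n : ℝ) + 1) := div_pos (hr n) (by positivity)
    exact (infDist_lt_iff hne).1 (by linarith)
  choose a ha hda using hq
  have hlim : Tendsto (fun n => (r n)⁻¹ • (a n - x₀)) l (𝓝 ξ) := by
    rw [Metric.tendsto_nhds]
    intro ε hε
    obtain ⟨r₀, hr₀, h1⟩ := hS ξ hξ (ε / 3) (by positivity)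
    have h2 : ∀ᶠ n in l, r n < r₀ := hr0.eventually_lt_const hr₀
    have h3 : ∀ᶠ n : ℕ in l, 1 / ((n : ℝ) + 1) < ε / 3 :=
      hl (tendsto_one_div_add_atTop_nhds_zero_nat.eventually_lt_const (by positivity))
    filter_upwards [h2, h3] with n hn1 hn2
    obtain ⟨v, hv, hvd⟩ := h1 (r n) (hr n) hn1
    have h4 : infDist (x₀ + r n • ξ) E ≤ ε / 3 * r n := by
      refine (infDist_le_dist_of_mem hv).trans ?_
      rwa [dist_comm, dist_eq_norm]
    have h5 := hda n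
    have hp := hr n
    have e : (r n)⁻¹ • (a n - x₀) - ξ = (r n)⁻¹ • (a n - (x₀ + r n • ξ)) := by
      rw [smul_sub, smul_sub, smul_add, smul_smul, inv_mul_cancel₀ hp.ne', one_smul]
      abel
    rw [dist_eq_norm, e, norm_smul, Real.norm_of_nonneg (inv_pos.2 hp).le, inv_mul_lt_iff₀ hp]
    rw [dist_comm, dist_eq_norm] at h5
    have h6 : r n / ((n : ℝ) + 1) = r n * (1 / ((n : ℝ) + 1)) := by ring
    rw [h6] at h5
    have h7 : r n * (1 / ((n : ℝ) + 1)) < r n * (ε / 3) := mul_lt_mul_of_pos_left hn2 hp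
    nlinarith
  refine ⟨a, ?_, hlim⟩
  filter_upwards [hlim.norm.eventually_lt_const hξ1] with n hn
  refine ⟨ha n, ?_⟩
  have hp := hr n
  rw [norm_smul, Real.norm_of_nonneg (inv_pos.2 hp).le, inv_mul_lt_iff₀ hp, mul_one] at hn
  exact hn

/-- A tangent direction decreasing the norm. -/
lemma exists_inward {η w : X} (hη : ‖η‖ = 1) (hd : Dn η) (hw : chi η w < 0) :
    ∃ τ : ℝ, 0 < τ ∧ ‖η + τ • w‖ < 1 := by
  obtain ⟨ε, hε⟩ : ∃ ε, ε = -chi η w / (2 * (‖w‖ + 1)) := ⟨_, rfl⟩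
  have hεp : 0 < ε := by
    rw [hε]
    have : 0 < -chi η w := by linarith
    positivity
  have h1 := hd.hasFDerivAt.isLittleO.def hεp
  obtain ⟨δ', hδ', hball⟩ := Metric.eventually_nhds_iff.1 h1
  obtain ⟨τ, hτ⟩ : ∃ τ, τ = δ' / (2 * (‖w‖ + 1)) := ⟨_, rfl⟩
  have hτp : 0 < τ := by
    rw [hτ]
    positivity
  have hτw : τ * ‖w‖ < δ' := by
    rw [hτ, div_mul_eq_mul_div, div_lt_iff₀ (by positivity)]
    nlinarith [norm_nonneg w]
  refine ⟨τ, hτp, ?_⟩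
  have h2 := hball (y := η + τ • w) (by
    rw [dist_eq_norm, add_sub_cancel_left, norm_smul, Real.norm_of_nonneg hτp.le]
    exact hτw)
  rw [add_sub_cancel_left, map_smul, smul_eq_mul, Real.norm_eq_abs, norm_smul,
    Real.norm_of_nonneg hτp.le, hη] at h2
  have h3 := (abs_le.1 h2).2
  change ‖η + τ • w‖ - 1 - τ * chi η w ≤ _ at h3
  have h4 : ε * (τ * ‖w‖) ≤ -chi η w / 2 * τ := by
    have e : ε * ‖w‖ ≤ -chi η w / 2 := by
      rw [hε, div_mul_eq_mul_div, div_le_iff₀ (by positivity)]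
      have : 0 < -chi η w := by linarith
      nlinarith [norm_nonneg w]
    nlinarith
  nlinarith

/-- A position in the open ball along a hyperplane. -/
lemma exists_p_of_ne (R : RPt g h x₀ Q Q') {d η w : X} (hη : ‖η‖ = 1)
    (hw1 : chi x₀ w = 0) (hw2 : Q d w = 0) (hw : chi η w ≠ 0) :
    ∃ p, chi x₀ p = 0 ∧ Q d p = 0 ∧ ‖η + p‖ < 1 := by
  have hη0 := ne0_of_unit η hη
  rcases lt_or_gt_of_ne hw with hlt | hgt
  · obtain ⟨τ, hτ, h1⟩ := exists_inward hη (R.C.dnX η hη0) hlt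
    exact ⟨τ • w, by rw [map_smul, hw1, smul_zero], by rw [map_smul, hw2, smul_zero], h1⟩
  · obtain ⟨τ, hτ, h1⟩ := exists_inward hη (R.C.dnX η hη0) (w := -w) (by
      rw [map_neg]
      linarith)
    refine ⟨τ • -w, by rw [map_smul, map_neg, hw1, neg_zero, smul_zero],
      by rw [map_smul, map_neg, hw2, neg_zero, smul_zero], h1⟩

/-- Hyperplanes for two independent directions cannot both lie in the kernel of `chi η`. -/
lemma exists_ne_of_perturb (R : RPt g h x₀ Q Q') {d g₀ η : X} {θ : ℝ} (hθ : 0 < θ)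
    (hη : ‖η‖ = 1) (hηx : chi x₀ η = 0) (hd1 : chi x₀ d = 0)
    (hg1 : chi x₀ g₀ = 0) (hg2 : Q d g₀ = 0) (hg0 : g₀ ≠ 0)
    (hC : ∀ w, chi x₀ w = 0 → Q d w = 0 → chi η w = 0) :
    ∃ w, chi x₀ w = 0 ∧ Q (d + θ • g₀) w = 0 ∧ chi η w ≠ 0 := by
  by_contra hc
  push Not at hc
  have hη0 := ne0_of_unit η hη
  have hself : chi η η = 1 := by
    rw [(R.C.dnX η hη0).chi_self, hη]
  have hgq := R.pos g₀ hg1 hg0
  obtain ⟨d', hd'⟩ : ∃ d', d' = d + θ • g₀ := ⟨_, rfl⟩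
  rw [← hd'] at hc
  have hd'1 : chi x₀ d' = 0 := by rw [hd', map_add, map_smul, hd1, hg1, smul_zero, add_zero]
  have hd'g : Q d' g₀ = θ * Q g₀ g₀ := by
    rw [hd', map_add, map_smul, _root_.add_apply, _root_.smul_apply, hg2, zero_add, smul_eq_mul]
  have hd'g0 : Q d' g₀ ≠ 0 := by
    rw [hd'g]
    positivity
  have hd'0 : d' ≠ 0 := by
    intro e
    rw [e, map_zero, _root_.zero_apply] at hd'g0
    exact hd'g0 rfl
  have hq := R.pos d' hd'1 hd'0
  have key : ∀ w, chi x₀ w = 0 → chi η w = Q d' w / Q d' d' * chi η d' := by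
    intro w hw
    have h1 := hc (w - (Q d' w / Q d' d') • d')
      (by rw [map_sub, map_smul, hw, hd'1, smul_zero, sub_zero])
      (by rw [map_sub, map_smul, smul_eq_mul, div_mul_cancel₀ _ hq.ne', sub_self])
    rw [map_sub, map_smul, smul_eq_mul] at h1
    linarith
  have h2 := key g₀ hg1
  rw [hC g₀ hg1 hg2] at h2
  have h3 : chi η d' = 0 := by
    have h4 := (mul_eq_zero.1 h2.symm).resolve_left (div_ne_zero hd'g0 hq.ne')
    exact h4
  have h5 := key η hηx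
  rw [h3, mul_zero, hself] at h5
  exact one_ne_zero h5

end Top1

end Vale.Agent.Lib.P084
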