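import Mathlib
import Vale.Agent.Lib.P084.Rig.Top1

/-! The rigidity theorem near a point of twice differentiability. -/

namespace Vale.Agent.Lib.P084

open Set Metric Filter Topology Module

section Top

variable {X Y : Type*} [NormedAddCommGroup X] [NormedSpace ℝ X] [NormedAddCommGroup Y]
  [NormedSpace ℝ Y]

variable {g : X → Y} {h : Y → X}
variable {x₀ : X} {E : Set X} {l : Filter ℕ} {r δ : ℕ → ℝ} {a b c x y : ℕ → X} {α β γ ζ η : X}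
variable {Q : X →L[ℝ] X →L[ℝ] ℝ} {Q' : Y →L[ℝ] Y →L[ℝ] ℝ}

/-- The supremum at one scale. -/
lemma sup_one (C : C1Ctx g h) (hE : ∀ x ∈ E, ‖x‖ = 1) {ρ : ℝ}
    (hex : ∃ x ∈ E, ∃ y ∈ E, ‖x - x₀‖ < ρ ∧ ‖y - x₀‖ < ρ ∧ ∃ d, chi x d = 0 ∧ chi y d = 0 ∧
      dT g x d ≠ dT g y d) :
    ∃ δ' > 0, (∀ a b, a ∈ E → b ∈ E → ‖a - x₀‖ < ρ → ‖b - x₀‖ < ρ → ∀ d, chi a d = 0 →
      chi b d = 0 → ‖dT g a d - dT g b d‖ ≤ δ' * ‖d‖) ∧
      ∃ x ∈ E, ∃ y ∈ E, ‖x - x₀‖ < ρ ∧ ‖y - x₀‖ < ρ ∧ ∃ d, chi x d = 0 ∧ chi y d = 0 ∧ ‖d‖ = 1 ∧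
        δ' / 2 < ‖dT g x d - dT g y d‖ := by
  obtain ⟨T, hT⟩ : ∃ T : Set ℝ, T = {t | ∃ x ∈ E, ∃ y ∈ E, ‖x - x₀‖ < ρ ∧ ‖y - x₀‖ < ρ ∧ ∃ d,
      chi x d = 0 ∧ chi y d = 0 ∧ ‖d‖ = 1 ∧ t = ‖dT g x d - dT g y d‖} := ⟨_, rfl⟩
  have hbdd : BddAbove T := by
    refine ⟨2, ?_⟩
    rw [hT]
    rintro t ⟨u, hu, v, hv, -, -, d, hd1, hd2, hd3, rfl⟩
    refine (norm_sub_le _ _).trans ?_
    rw [C.norm_dT (hE u hu) hd1, C.norm_dT (hE v hv) hd2, hd3]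
    norm_num
  have hmem : ∀ {u v d}, u ∈ E → v ∈ E → ‖u - x₀‖ < ρ → ‖v - x₀‖ < ρ → chi u d = 0 → chi v d = 0 →
      d ≠ 0 → ‖dT g u d - dT g v d‖ * ‖d‖⁻¹ ∈ T := by
    intro u v d hu hv h1 h2 h3 h4 h5
    rw [hT]
    refine ⟨u, hu, v, hv, h1, h2, ‖d‖⁻¹ • d, by rw [map_smul, h3, smul_zero],
      by rw [map_smul, h4, smul_zero], unit_of_ne h5, ?_⟩
    rw [map_smul, map_smul, ← smul_sub, norm_smul, norm_inv, norm_norm, mul_comm]
  obtain ⟨u, hu, v, hv, h1, h2, d, h3, h4, h5⟩ := hex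
  have hd0 : d ≠ 0 := by
    rintro rfl
    simp at h5
  have hpos : 0 < ‖dT g u d - dT g v d‖ * ‖d‖⁻¹ :=
    mul_pos (norm_pos_iff.2 (sub_ne_zero.2 h5)) (inv_pos.2 (norm_pos_iff.2 hd0))
  have hδ : 0 < sSup T := hpos.trans_le (le_csSup hbdd (hmem hu hv h1 h2 h3 h4 hd0))
  refine ⟨sSup T, hδ, ?_, ?_⟩
  · intro a b ha hb h6 h7 e h8 h9
    by_cases he : e = 0
    · simp [he]
    have hn : 0 < ‖e‖ := norm_pos_iff.2 he
    have h10 := le_csSup hbdd (hmem ha hb h6 h7 h8 h9 he)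
    rwa [← div_eq_mul_inv, div_le_iff₀ hn] at h10
  · have hne : T.Nonempty := ⟨_, hmem hu hv h1 h2 h3 h4 hd0⟩
    obtain ⟨t, ht, hlt⟩ := exists_lt_of_lt_csSup hne (half_lt_self hδ)
    rw [hT] at ht
    obtain ⟨x', hx', y', hy', h6, h7, e, h8, h9, h10, rfl⟩ := ht
    exact ⟨x', hx', y', hy', h6, h7, e, h8, h9, h10, hlt⟩

/-- Approximation of vectors in the limit kernel of the normalized differences. -/
lemma appr_ZZ (S : Scl g x₀ E l r δ) (R : RPt g h x₀ Q Q') (hy : BSeq x₀ E l r y η)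
    {Zl : X →L[ℝ] ℝ} (hZ : Tendsto (ZZ x y) l (𝓝 Zl)) (hZ0 : Zl ≠ 0) (hZx : Zl x₀ = 0) {w : X}
    (hw1 : chi x₀ w = 0) (hw3 : Zl w = 0) : Appr l (K2 x y) w := by
  obtain ⟨e', he'⟩ : ∃ e', Zl e' ≠ 0 := by
    by_contra hc
    push Not at hc
    exact hZ0 (ContinuousLinearMap.ext hc)
  obtain ⟨e, he1, he2⟩ : ∃ e, chi x₀ e = 0 ∧ Zl e ≠ 0 := by
    refine ⟨e' - chi x₀ e' • x₀, ?_, ?_⟩
    · rw [map_sub, map_smul, R.chi_self, smul_eq_mul, mul_one, sub_self]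
    · rwa [map_sub, map_smul, hZx, smul_zero, sub_zero]
  have h1 := (appr_ker S R hy hw1).kill (appr_ker S R hy he1) hZ he2 hw3
  refine h1.mono (.of_forall fun n => ?_)
  intro u hu
  obtain ⟨h2, h3⟩ := Submodule.mem_inf.1 hu
  rw [mem_Kr] at h2 h3
  exact mem_K2.2 ⟨ZZ_ker h2 h3, h2⟩

/-- The degenerate case: perturb the limit direction. -/
lemma rig_degenerate [FiniteDimensional ℝ X] [Nontrivial X] [FiniteDimensional ℝ Y]
    [StrictConvexSpace ℝ Y] (l : Ultrafilter ℕ) (S : Scl g x₀ E (l : Filter ℕ) r δ)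
    (R : RPt g h x₀ Q Q') (hdim : 4 ≤ finrank ℝ X)
    (hB : ∀ ξ, chi x₀ ξ = 0 → ‖ξ‖ < 1 → ∃ a, BSeq x₀ E l r a ξ)
    (hx : BSeq x₀ E l r x η) (hy : BSeq x₀ E l r y η) {d₀ : X} {U : Y}
    (hU : Gl g l δ x y d₀ U) (hU0 : 1 / 2 ≤ ‖U‖) {Zl : X →L[ℝ] ℝ}
    (hZ : Tendsto (ZZ x y) l (𝓝 Zl)) (hZ0 : Zl ≠ 0) (hZx : Zl x₀ = 0)
    (hd₀ : chi x₀ d₀ = 0) (hη : ‖η‖ = 1)
    (hC : ∀ w, chi x₀ w = 0 → Q d₀ w = 0 → chi η w = 0) : False := by
  obtain ⟨g₀, hg0, hg1, hg2, hg3⟩ := exists_kernel3 hdim (chi x₀) (Q d₀) Zl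
  obtain ⟨gs, hgs, hgk⟩ := appr_ZZ S R hy hZ hZ0 hZx hg1 hg3
  obtain ⟨V, hV⟩ := Gl.exists_of_appr l S hx hy (d₀ := g₀) ⟨gs, hgs, hgk⟩
  have hVlim := hV.transfer S hx hy hgs hgk
  have hVn : ‖V‖ ≤ ‖g₀‖ := le_of_tendsto_of_tendsto hVlim.norm hgs.norm (diff_bound S hx hy hgk)
  obtain ⟨θ, hθ⟩ : ∃ θ, θ = 1 / (8 * (‖g₀‖ + 1)) := ⟨_, rfl⟩
  have hθp : 0 < θ := by
    rw [hθ]
    positivity
  obtain ⟨d, hd, hk, hD⟩ := id hU
  have hU' : Gl g l δ x y (d₀ + θ • g₀) (U + θ • V) := by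
    refine ⟨fun n => d n + θ • gs n, hd.add (hgs.const_smul θ), ?_, ?_⟩
    · filter_upwards [hk, hgk] with n h1 h2
      exact (K2 x y n).add_mem h1 ((K2 x y n).smul_mem θ h2)
    · refine (hD.add (hVlim.const_smul θ)).congr fun n => ?_
      simp only [map_add, map_smul]
      module
  have hU'0 : U + θ • V ≠ 0 := by
    intro e
    have e1 : U = -(θ • V) := eq_neg_of_add_eq_zero_left e
    rw [e1, norm_neg, norm_smul, Real.norm_of_nonneg hθp.le] at hU0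
    have h2 : θ * ‖V‖ ≤ θ * ‖g₀‖ := mul_le_mul_of_nonneg_left hVn hθp.le
    have h3 : θ * ‖g₀‖ < 1 / 2 := by
      rw [hθ, div_mul_eq_mul_div, div_lt_iff₀ (by positivity)]
      nlinarith [norm_nonneg g₀]
    linarith
  have hηx : chi x₀ η = 0 := hy.chi_base S R
  obtain ⟨w, hw1, hw2, hw3⟩ := exists_ne_of_perturb R hθp hη hηx hd₀ hg1 hg2 hg0 hC
  obtain ⟨p, hp1, hp2, hp3⟩ := exists_p_of_ne R hη hw1 hw2 hw3
  exact rig_main l S R hdim hB hx hy hU' hU'0 hZ hZ0 hZx (by rw [sub_self, map_zero]) hp1 hp2 hp3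

lemma chi_diff_bound (hD : ∀ z : X, z ≠ 0 → Dn z) {u v : X} (hu : ‖u‖ = 1) (hv : ‖v‖ = 1) (w : X) :
    |(chi u - chi v) w| ≤ ‖chi u - chi v‖ * (‖u - v‖ + ‖w - v‖) := by
  have hu0 := (hD u (ne0_of_unit u hu)).chi_self
  have hv0 := (hD v (ne0_of_unit v hv)).chi_self
  rw [hu] at hu0
  rw [hv] at hv0
  have h1 : chi v u ≤ 1 := by
    have := chi_le v u
    rwa [hu] at this
  have h2 : chi u v ≤ 1 := by
    have := chi_le u v
    rwa [hv] at this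
  have h3 : (chi u - chi v) (u - v) ≤ ‖chi u - chi v‖ * ‖u - v‖ :=
    (le_abs_self _).trans ((chi u - chi v).le_opNorm _)
  have h4 : (chi u - chi v) (u - v) = (1 - chi v u) + (1 - chi u v) := by
    simp only [_root_.sub_apply, map_sub, hu0, hv0]
    ring
  have h5 : |(chi u - chi v) v| ≤ ‖chi u - chi v‖ * ‖u - v‖ := by
    have e : (chi u - chi v) v = chi u v - 1 := by
      rw [_root_.sub_apply, hv0]
    rw [e, abs_of_nonpos (by linarith)]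
    linarith
  have h6 : |(chi u - chi v) (w - v)| ≤ ‖chi u - chi v‖ * ‖w - v‖ := (chi u - chi v).le_opNorm _
  have e : (chi u - chi v) w = (chi u - chi v) v + (chi u - chi v) (w - v) := by
    rw [map_sub]
    ring
  rw [e, mul_add]
  exact (abs_add_le _ _).trans (add_le_add h5 h6)

/-- **Rigidity near a point of twice differentiability, in dimension at least four.** -/
theorem rigidity [FiniteDimensional ℝ X] [Nontrivial X] [FiniteDimensional ℝ Y]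
    [StrictConvexSpace ℝ X] [StrictConvexSpace ℝ Y] (R : RPt g h x₀ Q Q') (hdim : 4 ≤ finrank ℝ X)
    (hE : ∀ x ∈ E, ‖x‖ = 1)
    (hS : ∀ ξ, chi x₀ ξ = 0 → ∀ ε > 0, ∃ r₀ > 0, ∀ ρ, 0 < ρ → ρ < r₀ →
      ∃ x ∈ E, ‖x - (x₀ + ρ • ξ)‖ ≤ ε * ρ) :
    ∃ ρ > 0, ∀ x ∈ E, ∀ y ∈ E, ‖x - x₀‖ < ρ → ‖y - x₀‖ < ρ → ∀ d, chi x d = 0 → chi y d = 0 →
      dT g x d = dT g y d := by
  by_contra hc
  push Not at hc
  obtain ⟨r, hr⟩ : ∃ r : ℕ → ℝ, r = fun n : ℕ => 1 / ((n : ℝ) + 1) := ⟨_, rfl⟩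
  have hrp : ∀ n, 0 < r n := fun n => by
    rw [hr]
    positivity
  have hex := fun n => sup_one (g := g) (x₀ := x₀) R.C hE (hc (r n) (hrp n))
  choose δ hδ hbd x hxE y hyE hx1 hy1 d hd1 hd2 hd3 hd4 using hex
  have hl : ((hyperfilter ℕ : Ultrafilter ℕ) : Filter ℕ) ≤ atTop := Nat.hyperfilter_le_atTop
  obtain ⟨l, hll⟩ : ∃ l : Ultrafilter ℕ, l = hyperfilter ℕ := ⟨_, rfl⟩
  rw [← hll] at hl
  have hrl : Tendsto r (l : Filter ℕ) (𝓝 0) := by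
    rw [hr]
    exact tendsto_one_div_add_atTop_nhds_zero_nat.mono_left hl
  have S : Scl g x₀ E (l : Filter ℕ) r δ := ⟨hE, hrp, hrl, hδ, hbd⟩
  have hB : ∀ ξ, chi x₀ ξ = 0 → ‖ξ‖ < 1 → ∃ a, BSeq x₀ E l r a ξ :=
    fun ξ hξ hξ1 => exists_bseq hrp hrl hl hS hξ hξ1
  have hseq : ∀ {a : ℕ → X}, (∀ n, a n ∈ E) → (∀ n, ‖a n - x₀‖ < r n) →
      ∃ α, BSeq x₀ E l r a α ∧ ‖α‖ ≤ 1 := by
    intro a h1 h2
    have h3 : ∀ n, ‖(r n)⁻¹ • (a n - x₀)‖ ≤ 1 := fun n => by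
      have hp := hrp n
      rw [norm_smul, Real.norm_of_nonneg (inv_pos.2 hp).le, inv_mul_le_iff₀ hp, mul_one]
      exact (h2 n).le
    obtain ⟨α, hα⟩ := exists_ulim l (u := fun n => (r n)⁻¹ • (a n - x₀)) (M := 1) (.of_forall h3)
    exact ⟨α, ⟨.of_forall fun n => ⟨h1 n, h2 n⟩, hα⟩,
      le_of_tendsto hα.norm (.of_forall h3)⟩
  obtain ⟨ζ, hx, hζ1⟩ := hseq hxE hx1
  obtain ⟨η, hy, hη1⟩ := hseq hyE hy1
  obtain ⟨d₀, hd⟩ := exists_ulim l (u := d) (M := 1) (.of_forall fun n => (hd3 n).le)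
  have hk : ∀ᶠ n in (l : Filter ℕ), d n ∈ K2 x y n := .of_forall fun n => mem_K2.2 ⟨hd1 n, hd2 n⟩
  obtain ⟨U, hU⟩ := Gl.exists_of_appr l S hx hy (d₀ := d₀) ⟨d, hd, hk⟩
  have hUlim := hU.transfer S hx hy hd hk
  have hU1 : 1 / 2 ≤ ‖U‖ := by
    refine ge_of_tendsto hUlim.norm (.of_forall fun n => ?_)
    have hp := hδ n
    rw [norm_smul, Real.norm_of_nonneg (inv_pos.2 hp).le, le_inv_mul_iff₀ hp]
    have := hd4 n
    linarith
  have hU0 : U ≠ 0 := by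
    intro e
    rw [e, norm_zero] at hU1
    norm_num at hU1
  have hne : ∀ n, chi (x n) - chi (y n) ≠ 0 := by
    intro n e
    have e1 : chi (x n) = chi (y n) := sub_eq_zero.1 e
    have hxu := hE _ (hxE n)
    have hyu := hE _ (hyE n)
    have e2 : chi (y n) (x n) = 1 := by
      rw [← e1, (R.C.dnX _ (ne0_of_unit _ hxu)).chi_self, hxu]
    have e3 : x n = y n := eq_of_chi_eq_one hyu hxu (R.C.dnX _ (ne0_of_unit _ hyu)) e2
    have h4 := hd4 n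
    rw [e3, sub_self, norm_zero] at h4
    have := hδ n
    linarith
  have hZn : ∀ n, ‖ZZ x y n‖ = 1 := fun n => unit_of_ne (hne n)
  obtain ⟨Zl, hZ⟩ := exists_ulim l (u := ZZ x y) (M := 1) (.of_forall fun n => (hZn n).le)
  have hZl1 : ‖Zl‖ = 1 := tendsto_nhds_unique hZ.norm (tendsto_const_nhds.congr fun n => (hZn n).symm)
  have hZ0 : Zl ≠ 0 := fun e => by
    rw [e, norm_zero] at hZl1
    exact zero_ne_one hZl1
  have hZx : Zl x₀ = 0 := by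
    have h1 := tendsto_clm_apply hZ (tendsto_const_nhds (x := x₀))
    refine tendsto_nhds_unique h1 (squeeze_zero_norm (a := fun n => ‖x n - y n‖ + ‖x₀ - y n‖)
      (fun n => ?_) ?_)
    · have hc0 : 0 < ‖chi (x n) - chi (y n)‖ := norm_pos_iff.2 (hne n)
      have h2 := chi_diff_bound R.C.dnX (hE _ (hxE n)) (hE _ (hyE n)) x₀
      unfold ZZ
      rw [_root_.smul_apply, smul_eq_mul, Real.norm_eq_abs, abs_mul,
        abs_of_pos (inv_pos.2 hc0), inv_mul_le_iff₀ hc0]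
      exact h2
    · have h2 := hx.tendsto S
      have h3 := hy.tendsto S
      have h4 : Tendsto (fun n => ‖x n - y n‖ + ‖x₀ - y n‖) (l : Filter ℕ)
          (𝓝 (‖x₀ - x₀‖ + ‖x₀ - x₀‖)) := (h2.sub h3).norm.add (tendsto_const_nhds.sub h3).norm
      simpa using h4
  have hd₀ : chi x₀ d₀ = 0 := by
    have h1 := tendsto_clm_apply (hy.chi_tendsto S R) hd
    exact tendsto_nhds_unique h1 (tendsto_const_nhds.congr fun n => (hd2 n).symm)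
  have hQz : Q d₀ (ζ - η) = 0 := by
    rw [R.sym]
    have h1 := tendsto_clm_apply (diff_chi_lim S R hx hy) hd
    refine tendsto_nhds_unique h1 (tendsto_const_nhds.congr fun n => ?_)
    rw [_root_.smul_apply, _root_.sub_apply, hd1, hd2, sub_zero, smul_zero]
  by_cases hp : ∃ p, chi x₀ p = 0 ∧ Q d₀ p = 0 ∧ ‖η + p‖ < 1
  · obtain ⟨p, hp1, hp2, hp3⟩ := hp
    exact rig_main l S R hdim hB hx hy hU hU0 hZ hZ0 hZx hQz hp1 hp2 hp3
  push Not at hp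
  have hζx := hx.chi_base S R
  have hηx := hy.chi_base S R
  have e1 : ζ = η := by
    by_contra hne2
    have h2 := strictConvex_closedBall ℝ (0 : X) 1 (mem_closedBall_zero_iff.2 hη1)
      (mem_closedBall_zero_iff.2 hζ1) (Ne.symm hne2) (a := 1 / 2) (b := 1 / 2) (by norm_num)
      (by norm_num) (by norm_num)
    rw [interior_closedBall _ one_ne_zero, mem_ball_zero_iff] at h2
    refine absurd ?_ (not_lt.2 (hp ((1 / 2 : ℝ) • (ζ - η))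
      (by rw [map_smul, map_sub, hζx, hηx, sub_zero, smul_zero])
      (by rw [map_smul, hQz, smul_zero])))
    have e : η + (1 / 2 : ℝ) • (ζ - η) = (1 / 2 : ℝ) • η + (1 / 2 : ℝ) • ζ := by module
    rw [e]
    exact h2
  have e2 : ‖η‖ = 1 := by
    refine le_antisymm hη1 ?_
    have := hp 0 (map_zero _) (map_zero _)
    rwa [add_zero] at this
  have e3 : ∀ w, chi x₀ w = 0 → Q d₀ w = 0 → chi η w = 0 := by
    intro w hw1 hw2
    by_contra hw3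
    obtain ⟨p, hp1, hp2, hp3⟩ := exists_p_of_ne R e2 hw1 hw2 hw3
    exact absurd hp3 (not_lt.2 (hp p hp1 hp2))
  subst e1
  exact rig_degenerate l S R hdim hB hx hy hU hU1 hZ hZ0 hZx hd₀ e2 e3

end Top

end Vale.Agent.Lib.P084
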