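import Mathlib
import Vale.Agent.Lib.P084.Rig.Top
import Vale.Agent.Lib.P084.Rig.Scale

/-! Every sphere isometry from a finite dimensional strictly convex normed space of dimension at
least three extends to a linear isometry. -/

namespace Vale.Agent.Lib.P084

open Set Metric Filter Topology MeasureTheory Module

section AllStrict

variable {X Y : Type*} [NormedAddCommGroup X] [NormedSpace ℝ X] [NormedAddCommGroup Y]
  [NormedSpace ℝ Y]

variable {g : X → Y} {h : Y → X}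

/-- Touching from outside makes the second derivative positive on the tangent space. -/
lemma pos_of_touch {x₀ : X} {Q : X →L[ℝ] X →L[ℝ] ℝ} (hD : ∀ z : X, z ≠ 0 → Dn z) (hx : ‖x₀‖ = 1)
    (hQ : HasFDerivAt (fun z : X => chi z) Q x₀) {c₁ : ℝ} (hc : 0 < c₁)
    (hT : ∀ a, ‖a‖ = 1 → c₁ * ‖a - x₀‖ ^ 2 ≤ 1 - chi x₀ a) {u : X} (hu : chi x₀ u = 0)
    (hu0 : u ≠ 0) : 0 < Q u u := by
  have hx0 := ne0_of_unit x₀ hx
  have hy := nline_hasDerivAt hx (hD x₀ hx0) hu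
  have hy0 := nline_zero hx u
  have h1 : HasFDerivAt (fun z : X => chi z) Q (nline x₀ u 0) := by
    rw [hy0]
    exact hQ
  have h2 : HasDerivAt (fun t => chi (nline x₀ u t)) (Q u) 0 := h1.comp_hasDerivAt 0 hy
  have s1 := hasDerivAt_iff_tendsto_slope_zero.1 hy
  have s2 := hasDerivAt_iff_tendsto_slope_zero.1 h2
  have hle : 𝓝[>] (0 : ℝ) ≤ 𝓝[≠] 0 := nhdsGT_le_nhdsNE 0
  have s3 := s1.mono_left hle
  have s4 := s2.mono_left hle
  have t1 := tendsto_clm_apply s4 s3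
  have t2 := s3.norm.pow 2
  have t3 := t2.const_mul c₁
  have hnear : ∀ᶠ t in 𝓝 (0 : ℝ), ‖nline x₀ u t‖ = 1 := nline_unit hx u
  have hev : ∀ᶠ t in 𝓝[>] (0 : ℝ), c₁ * ‖t⁻¹ • (nline x₀ u (0 + t) - nline x₀ u 0)‖ ^ 2 ≤
      (t⁻¹ • (chi (nline x₀ u (0 + t)) - chi (nline x₀ u 0)))
        (t⁻¹ • (nline x₀ u (0 + t) - nline x₀ u 0)) := by
    filter_upwards [nhdsWithin_le_nhds hnear, self_mem_nhdsWithin] with t ht ht0
    have ht0' : 0 < t := ht0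
    rw [hy0, zero_add, _root_.smul_apply, map_smul, smul_eq_mul, smul_eq_mul, norm_smul,
      Real.norm_of_nonneg (inv_pos.2 ht0').le]
    obtain ⟨y, hyd⟩ : ∃ y, y = nline x₀ u t := ⟨_, rfl⟩
    rw [← hyd] at ht ⊢
    have h3 := hT y ht
    have h4 : chi y x₀ ≤ 1 := by
      have := chi_le y x₀
      rwa [hx] at this
    have h5 : (chi y - chi x₀) (y - x₀) = (1 - chi y x₀) + (1 - chi x₀ y) := by
      simp only [_root_.sub_apply, map_sub]
      rw [(hD y (ne0_of_unit y ht)).chi_self, (hD x₀ hx0).chi_self, ht, hx]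
      ring
    rw [h5]
    have h6 : 0 ≤ t⁻¹ * t⁻¹ := by positivity
    have h7 : c₁ * ‖y - x₀‖ ^ 2 ≤ (1 - chi y x₀) + (1 - chi x₀ y) := by linarith
    calc c₁ * (t⁻¹ * ‖y - x₀‖) ^ 2 = t⁻¹ * t⁻¹ * (c₁ * ‖y - x₀‖ ^ 2) := by ring
      _ ≤ t⁻¹ * t⁻¹ * ((1 - chi y x₀) + (1 - chi x₀ y)) := mul_le_mul_of_nonneg_left h7 h6
      _ = t⁻¹ * (t⁻¹ * ((1 - chi y x₀) + (1 - chi x₀ y))) := by ring
  have h8 := le_of_tendsto_of_tendsto t3 t1 hev
  have h9 : 0 < c₁ * ‖u‖ ^ 2 := by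
    have := norm_pos_iff.2 hu0
    positivity
  linarith

/-- The `C^{1,1}` case in dimension at least four. -/
theorem sphere_extends_dim4_C11 [FiniteDimensional ℝ X] [Nontrivial X] [StrictConvexSpace ℝ X]
    [StrictConvexSpace ℝ Y] [FiniteDimensional ℝ Y] [MeasurableSpace X] [BorelSpace X]
    (C : C1Ctx g h) (hdX : 4 ≤ finrank ℝ X)
    (hR : ∀ x : X, ‖x‖ = 1 → Rate x) : ∃ T : X ≃ₗᵢ[ℝ] Y, ∀ x, ‖x‖ = 1 → T x = g x := by
  have hdXY : finrank ℝ X = finrank ℝ Y := finrank_eq_of_sphereIso C.iso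
  obtain ⟨c₁, hc₁, C₁, hC₁, K, hKμ, hK0, hKc, hKt⟩ := exists_touch_cone C.dnX hR
  obtain ⟨K', hK's, hK'c, hK'μ, hK'd⟩ := exists_second_cone C hKc hKμ hK0
  obtain ⟨C', hC's, hC'c, hC'd, z₀, hz₀, hz₀S, hz₀μ⟩ :=
    exists_selfdense' μH[(finrank ℝ X : ℝ)] hK'c hK'μ
  have hz₀0 := hK0 _ (hK's (hC's hz₀))
  obtain ⟨x₁, hx₁⟩ : ∃ x₁, x₁ = ‖z₀‖⁻¹ • z₀ := ⟨_, rfl⟩
  have hx₁C : x₁ ∈ C' := by
    rw [hx₁]
    exact hC'c _ hz₀ _ (inv_pos.2 (norm_pos_iff.2 hz₀0))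
  have hx₁u : ‖x₁‖ = 1 := by
    rw [hx₁]
    exact unit_of_ne hz₀0
  obtain ⟨hd1, hd2⟩ := hK'd x₁ (hC's hx₁C)
  rw [radial_of_unit g hx₁u] at hd2
  have R : RPt g h x₁ (fderiv ℝ (fun w : X => chi w) x₁) (fderiv ℝ (fun w : Y => chi w) (g x₁)) :=
    ⟨C, hx₁u, hd1.hasFDerivAt, hd2.hasFDerivAt, fun u hu hu0 => pos_of_touch C.dnX hx₁u
      hd1.hasFDerivAt hc₁ (hKt x₁ (hK's (hC's hx₁C)) hx₁u).1 hu hu0⟩
  have hNX : Nontrivial X := inferInstance
  obtain ⟨r, hr, hnd⟩ := rigidity R hdX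
    (E := {x | x ∈ C' ∧ ‖x‖ = 1 ∧ ‖x - x₁‖ < c₁ / 2}) (fun x hx => hx.2.1) (by
      intro ξ hξ ε hε
      have hξ' : chi (‖z₀‖⁻¹ • z₀) ξ = 0 := by rw [← hx₁]; exact hξ
      obtain ⟨r₀, hr₀, h1⟩ := hz₀S.unit hC'c (fun z hz => hK0 z (hK's (hC's hz))) hz₀0
        (C.dnX _ (by rw [← hx₁]; exact ne0_of_unit x₁ hx₁u)) hξ' (ε := min ε 1) (by positivity)
      refine ⟨min r₀ (c₁ / (4 * (‖ξ‖ + 1))), lt_min hr₀ (by positivity), fun ρ hρ0 hρ => ?_⟩
      obtain ⟨y, hy, hyu, hyd⟩ := h1 ρ hρ0 (hρ.trans_le (min_le_left _ _))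
      rw [← hx₁] at hyd
      refine ⟨y, ⟨hy, hyu, ?_⟩, hyd.trans (mul_le_mul_of_nonneg_right (min_le_left _ _) hρ0.le)⟩
      have h2 : ρ < c₁ / (4 * (‖ξ‖ + 1)) := hρ.trans_le (min_le_right _ _)
      rw [lt_div_iff₀ (by positivity)] at h2
      have h3 : ‖y - (x₁ + ρ • ξ)‖ ≤ 1 * ρ := hyd.trans
        (mul_le_mul_of_nonneg_right (min_le_right _ _) hρ0.le)
      have e : y - x₁ = (y - (x₁ + ρ • ξ)) + ρ • ξ := by abel
      rw [e]
      refine (norm_add_le _ _).trans_lt ?_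
      rw [norm_smul, Real.norm_of_nonneg hρ0.le]
      nlinarith [norm_nonneg ξ])
  obtain ⟨ρ, hρ⟩ : ∃ ρ, ρ = min (c₁ / 2) (min r (1 / 2)) := ⟨_, rfl⟩
  have hρp : 0 < ρ := by
    rw [hρ]
    positivity
  have hρ1 : ρ ≤ c₁ / 2 := by
    rw [hρ]
    exact min_le_left _ _
  have hρ2 : ρ ≤ r := by
    rw [hρ]
    exact (min_le_right _ _).trans (min_le_left _ _)
  have hρ3 : ρ ≤ 1 / 2 := by
    rw [hρ]
    exact (min_le_right _ _).trans (min_le_right _ _)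
  obtain ⟨F, hF⟩ : ∃ F, F = {x | x ∈ C' ∧ ‖x‖ = 1 ∧ ‖x - x₁‖ < ρ} := ⟨_, rfl⟩
  have hdist : ∀ {x y : X}, x ∈ F → y ∈ F → ‖y - x‖ < 2 * ρ := by
    intro x y hx hy
    rw [hF] at hx hy
    have e : y - x = (y - x₁) - (x - x₁) := by abel
    rw [e]
    refine (norm_sub_le _ _).trans_lt ?_
    linarith [hx.2.2, hy.2.2]
  have P : Patch g F c₁ C₁ := by
    refine ⟨hc₁, hC₁, ?_, ?_, ?_, ?_, ?_, ?_⟩
    · intro x hx
      rw [hF] at hx
      exact hx.2.1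
    · intro x hx y hy
      have := hdist hy hx
      linarith
    · intro x hx y hy
      have hy' := hy
      rw [hF] at hx hy'
      exact (hKt x (hK's (hC's hx.1)) hx.2.1).1 y hy'.2.1
    · intro x hx y hy
      have hd := hdist hx hy
      have hy' := hy
      rw [hF] at hx hy'
      exact (hKt x (hK's (hC's hx.1)) hx.2.1).2 y hy'.2.1 (by linarith)
    · intro x hx u hu ε hε
      rw [hF] at hx
      obtain ⟨hxC, hxu, hxr⟩ := hx
      have hη : 0 < ρ - ‖x - x₁‖ := sub_pos.2 hxr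
      obtain ⟨ε', hε'⟩ : ∃ ε', ε' = min ε (min 1 ((ρ - ‖x - x₁‖) / (‖u‖ + 1))) := ⟨_, rfl⟩
      have hε'p : 0 < ε' := by
        rw [hε']
        positivity
      have hε'a : ε' ≤ ε := by
        rw [hε']
        exact min_le_left _ _
      have hε'b : ε' ≤ 1 := by
        rw [hε']
        exact (min_le_right _ _).trans (min_le_left _ _)
      have hε'c : ε' ≤ (ρ - ‖x - x₁‖) / (‖u‖ + 1) := by
        rw [hε']
        exact (min_le_right _ _).trans (min_le_right _ _)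
      obtain ⟨t, ht, htε, y, hyC, hyu, hyd⟩ := (hC'd x hxC).unit hC'c (fun z hz => hK0 z (hK's (hC's hz)))
        hxu (C.dnX x (ne0_of_unit x hxu)) hu hε'p
      refine ⟨t, ht, htε.trans_le hε'a, y, ?_, hyd.trans
        (mul_le_mul_of_nonneg_right hε'a ht.le)⟩
      rw [hF]
      refine ⟨hyC, hyu, ?_⟩
      have e : y - x₁ = (y - (x + t • u)) + t • u + (x - x₁) := by abel
      rw [e]
      have h1 := norm_add_le ((y - (x + t • u)) + t • u) (x - x₁)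
      have h2 := norm_add_le (y - (x + t • u)) (t • u)
      rw [norm_smul, Real.norm_of_nonneg ht.le] at h2
      have h3 : t < (ρ - ‖x - x₁‖) / (‖u‖ + 1) := htε.trans_le hε'c
      rw [lt_div_iff₀ (by positivity)] at h3
      have h4 : ε' * t ≤ 1 * t := mul_le_mul_of_nonneg_right hε'b ht.le
      linarith
    · intro x hx y hy d hd1 hd2
      rw [hF] at hx hy
      exact hnd x ⟨hx.1, hx.2.1, by linarith [hx.2.2]⟩ y ⟨hy.1, hy.2.1, by linarith [hy.2.2]⟩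
        (by linarith [hx.2.2]) (by linarith [hy.2.2]) d hd1 hd2
  have hx₁F : x₁ ∈ F := by
    rw [hF]
    refine ⟨hx₁C, hx₁u, ?_⟩
    rw [sub_self, norm_zero]
    exact hρp
  obtain ⟨L, hL⟩ := P.exists_linearN C (by omega) hdXY hx₁F
  refine C.extends_of_const hdXY (L := L) ?_
  obtain ⟨N, hN⟩ : ∃ N, N = ‖z₀‖ := ⟨_, rfl⟩
  have hNp : 0 < N := by
    rw [hN]
    exact norm_pos_iff.2 hz₀0
  intro h0
  refine hz₀μ (min (N / 2) (ρ * N / 8)) (by positivity) (measure_mono_null ?_ h0)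
  rintro v ⟨hvC, hvb⟩
  rw [mem_closedBall, dist_eq_norm] at hvb
  have hv1 : ‖v - z₀‖ ≤ N / 2 := hvb.trans (min_le_left _ _)
  have hv2 : ‖v - z₀‖ ≤ ρ * N / 8 := hvb.trans (min_le_right _ _)
  have hv0 : v ≠ 0 := hK0 v (hK's (hC's hvC))
  have hvp : 0 < ‖v‖ := norm_pos_iff.2 hv0
  have hvlow : N / 2 ≤ ‖v‖ := by
    have := abs_norm_sub_norm_le z₀ v
    rw [norm_sub_rev] at this
    have h2 := (abs_le.1 this).2
    rw [← hN] at h2
    linarith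
  have hF1 : ‖v‖⁻¹ • v ∈ F := by
    rw [hF]
    refine ⟨hC'c v hvC _ (inv_pos.2 hvp), unit_of_ne hv0, ?_⟩
    have h1 := normalize_dist (v₀ := z₀) hv0
    rw [← hx₁] at h1
    refine h1.trans_lt ?_
    rw [div_lt_iff₀ hvp]
    have h2 : ρ * (N / 2) ≤ ρ * ‖v‖ := mul_le_mul_of_nonneg_left hvlow hρp.le
    have h3 : 0 < ρ * N := by positivity
    linarith
  refine ⟨hv0, ?_⟩
  have h1 := hL _ hF1
  rwa [C.dT_smul hv0 (inv_pos.2 hvp)] at h1

/-- **Every sphere isometry from a finite dimensional strictly convex normed space of dimension at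
least four extends to a linear isometry.** -/
theorem strict_dim4_extends [FiniteDimensional ℝ X] [StrictConvexSpace ℝ X]
    (hdim : 4 ≤ finrank ℝ X) (f : sphere (0 : X) 1 ≃ᵢ sphere (0 : Y) 1) :
    ∃ T : X ≃ₗᵢ[ℝ] Y, ∀ x : sphere (0 : X) 1, T x = f x := by
  by_cases hR : (∃ x₀ : X, ‖x₀‖ = 1 ∧ ¬(Dn x₀ ∧ Rate x₀)) ∨ (∃ y₀ : Y, ‖y₀‖ = 1 ∧ ¬(Dn y₀ ∧ Rate y₀))
  · exact strict_extends_of_rough f hR
  push Not at hR
  obtain ⟨hX, hY⟩ := hR
  have hFY : FiniteDimensional ℝ Y := finiteDimensional_of_sphere f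
  have hNX : Nontrivial X := Module.nontrivial_of_finrank_pos (R := ℝ) (by omega)
  let _ : MeasurableSpace X := borel X
  have : BorelSpace X := ⟨rfl⟩
  obtain ⟨g, h, H, hg⟩ := exists_sphereIso f
  have hSY : StrictConvexSpace ℝ Y := strictConvex_of_sphere H
  have hDX : ∀ z : X, z ≠ 0 → Dn z := by
    intro z hz
    have h1 := (hX _ (unit_of_ne hz)).1.smul (norm_pos_iff.2 hz)
    rwa [smul_smul, mul_inv_cancel₀ (norm_ne_zero_iff.2 hz), one_smul] at h1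
  have hDY : ∀ z : Y, z ≠ 0 → Dn z := by
    intro z hz
    have h1 := (hY _ (unit_of_ne hz)).1.smul (norm_pos_iff.2 hz)
    rwa [smul_smul, mul_inv_cancel₀ (norm_ne_zero_iff.2 hz), one_smul] at h1
  obtain ⟨T, hT⟩ := sphere_extends_dim4_C11 (C1Ctx.of_dn H hDX hDY) hdim
    (fun x hx => (hX x hx).2)
  refine ⟨T, fun x => ?_⟩
  rw [← hg x]
  exact hT x (by simpa using x.2)

/-- **Every sphere isometry from a finite dimensional strictly convex normed space of dimension at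
least three extends to a linear isometry.** -/
theorem strict_all_extends [FiniteDimensional ℝ X] [StrictConvexSpace ℝ X]
    (hdim : 3 ≤ finrank ℝ X) (f : sphere (0 : X) 1 ≃ᵢ sphere (0 : Y) 1) :
    ∃ T : X ≃ₗᵢ[ℝ] Y, ∀ x : sphere (0 : X) 1, T x = f x := by
  by_cases h3 : finrank ℝ X = 3
  · exact strict_dim3_extends h3 f
  · exact strict_dim4_extends (by omega) f

end AllStrict

end Vale.Agent.Lib.P084
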